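import Mathlib

/-!
P129 (separable quotient problem): triangular systems.
-/

namespace Vale.Agent.Lib.P129

open TopologicalSpace Set

variable {𝕜 : Type*} [RCLike 𝕜] {X : Type*} [NormedAddCommGroup X] [NormedSpace 𝕜 X]

/-- Hahn-Banach for a closed subspace: a continuous functional vanishing on `H` and equal to `1`
at a given point outside `H`. -/
theorem exists_dual_vanishing (H : Submodule 𝕜 X) (hH : IsClosed (H : Set X)) {z : X}
    (hz : z ∉ H) : ∃ g : X →L[𝕜] 𝕜, (∀ h ∈ H, g h = 0) ∧ g z = 1 := by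
  have : IsClosed (H : Set X) := hH
  have hne : H.mkQ z ≠ 0 := by
    intro h
    exact hz ((Submodule.Quotient.mk_eq_zero H).1 h)
  obtain ⟨g, hg⟩ := SeparatingDual.exists_eq_one (R := 𝕜) hne
  refine ⟨g.comp H.mkQL, ?_, ?_⟩
  · intro h hh
    have : H.mkQ h = 0 := (Submodule.Quotient.mk_eq_zero H).2 hh
    simp [this]
  · simpa using hg

/-- A triangular system on `X`. -/
def IsTriangular (f : ℕ → X →L[𝕜] 𝕜) (x : ℕ → X) : Prop :=
  (∀ j k, j < k → f k (x j) = 0) ∧ (∀ j, f j (x j) ≠ 0) ∧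
    Dense {y : X | ∃ m, ∀ k, m ≤ k → f k y = 0}

/-- the subspace of vectors killed by all `f k`, `k ≥ m`. -/
def tail (f : ℕ → X →L[𝕜] 𝕜) (m : ℕ) : Submodule 𝕜 X :=
  ⨅ k : {k : ℕ // m ≤ k}, LinearMap.ker (f k.1 : X →ₗ[𝕜] 𝕜)

theorem mem_tail {f : ℕ → X →L[𝕜] 𝕜} {m : ℕ} {y : X} :
    y ∈ tail f m ↔ ∀ k, m ≤ k → f k y = 0 := by
  simp [tail, Submodule.mem_iInf]

theorem tail_mono (f : ℕ → X →L[𝕜] 𝕜) : Monotone (tail f) := by
  intro a b hab y hy
  rw [mem_tail] at hy ⊢
  exact fun k hk => hy k (hab.trans hk)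

theorem isClosed_tail (f : ℕ → X →L[𝕜] 𝕜) (m : ℕ) : IsClosed (tail f m : Set X) := by
  have : (tail f m : Set X) = ⋂ k : {k : ℕ // m ≤ k}, {y | f k.1 y = 0} := by
    ext y
    simp [mem_tail]
  rw [this]
  exact isClosed_iInter fun k => isClosed_eq (f k.1).continuous continuous_const

theorem tail_le_span_sup {f : ℕ → X →L[𝕜] 𝕜} {x : ℕ → X}
    (h1 : ∀ j k, j < k → f k (x j) = 0) (h2 : ∀ j, f j (x j) ≠ 0) (m : ℕ) :
    tail f m ≤ Submodule.span 𝕜 (range x) ⊔ tail f 0 := by
  induction m with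
  | zero => exact le_sup_right
  | succ m ih =>
    intro y hy
    rw [mem_tail] at hy
    set c : 𝕜 := f m y / f m (x m) with hc
    have hy' : y - c • x m ∈ tail f m := by
      rw [mem_tail]
      intro k hk
      rcases hk.eq_or_lt with rfl | hlt
      · simp [hc, h2 m]
      · simp [hy k hlt, h1 m k hlt]
    have h3 : c • x m ∈ Submodule.span 𝕜 (range x) ⊔ tail f 0 :=
      Submodule.mem_sup_left (Submodule.smul_mem _ _ (Submodule.subset_span ⟨m, rfl⟩))
    have := Submodule.add_mem _ (ih hy') h3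
    simpa using this

/-- A triangular system gives a separable infinite-dimensional quotient. -/
theorem sq_of_triangular {f : ℕ → X →L[𝕜] 𝕜} {x : ℕ → X} (h : IsTriangular f x) :
    ∃ M : Submodule 𝕜 X, IsClosed (M : Set X) ∧ SeparableSpace (X ⧸ M) ∧
      ¬ FiniteDimensional 𝕜 (X ⧸ M) := by
  obtain ⟨h1, h2, h3⟩ := h
  set M := tail f 0 with hM
  refine ⟨M, isClosed_tail f 0, ?_, ?_⟩
  · -- separable
    have hq : Dense (M.mkQ '' {y : X | ∃ m, ∀ k, m ≤ k → f k y = 0}) := by
      have hsurj : Function.Surjective M.mkQL := Submodule.mkQ_surjective M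
      have := hsurj.denseRange.dense_image M.mkQL.continuous h3
      simpa using this
    have hsub : M.mkQ '' {y : X | ∃ m, ∀ k, m ≤ k → f k y = 0} ⊆
        (Submodule.span 𝕜 (range fun n => M.mkQ (x n)) : Set (X ⧸ M)) := by
      rintro _ ⟨y, ⟨m, hm⟩, rfl⟩
      have hy : y ∈ Submodule.span 𝕜 (range x) ⊔ M :=
        tail_le_span_sup h1 h2 m (mem_tail.2 hm)
      obtain ⟨a, ha, b, hb, rfl⟩ := Submodule.mem_sup.1 hy
      have hb0 : M.mkQ b = 0 := (Submodule.Quotient.mk_eq_zero M).2 hb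
      rw [map_add, hb0, add_zero]
      have : M.mkQ a ∈ (Submodule.span 𝕜 (range x)).map M.mkQ := Submodule.mem_map_of_mem ha
      rw [Submodule.map_span, ← range_comp] at this
      exact this
    have hsep : IsSeparable (Submodule.span 𝕜 (range fun n => M.mkQ (x n)) : Set (X ⧸ M)) :=
      (countable_range _).isSeparable.span
    have hd : Dense (Submodule.span 𝕜 (range fun n => M.mkQ (x n)) : Set (X ⧸ M)) :=
      hq.mono hsub
    have := hsep.closure
    rw [hd.closure_eq] at this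
    exact isSeparable_univ_iff.1 this
  · -- infinite-dimensional
    intro hfd
    have hno : IsNoetherian 𝕜 (X ⧸ M) := inferInstance
    let g : ℕ →o Submodule 𝕜 (X ⧸ M) :=
      ⟨fun m => (tail f m).map M.mkQ, fun a b hab => Submodule.map_mono (tail_mono f hab)⟩
    obtain ⟨n, hn⟩ := monotone_stabilizes_iff_noetherian.2 hno g
    have h4 : (tail f n).map M.mkQ = (tail f (n + 1)).map M.mkQ := hn (n + 1) (Nat.le_succ n)
    have h5 : tail f (n + 1) ≤ tail f n := by
      have := congrArg (Submodule.comap M.mkQ) h4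
      rw [Submodule.comap_map_mkQ, Submodule.comap_map_mkQ] at this
      have hMn : M ≤ tail f n := tail_mono f (Nat.zero_le n)
      have hMn1 : M ≤ tail f (n + 1) := tail_mono f (Nat.zero_le _)
      rw [sup_eq_right.2 hMn, sup_eq_right.2 hMn1] at this
      exact this.ge
    have h6 : x n ∈ tail f (n + 1) := mem_tail.2 fun k hk => h1 n k hk
    exact h2 n (mem_tail.1 (h5 h6) n le_rfl)

end Vale.Agent.Lib.P129
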