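import Mathlib

/-! P129, leaf (N2): the closed span of an infinite set `D` has a dense subset of cardinality `≤ #D`. -/

namespace Vale.Agent.Lib.P129

open TopologicalSpace Set Function Filter Topology Cardinal

variable {𝕜 : Type*} [RCLike 𝕜] {X : Type*} [NormedAddCommGroup X] [NormedSpace 𝕜 X]

/-- (N2) PLAN. Let `Q : Set 𝕜` be a countable dense subset of `𝕜` (`TopologicalSpace.exists_countable_dense 𝕜`;
`𝕜` is separable: instance via `RCLike`/proper space/second countable). Let
`S := range (fun c : D →₀ Q => ∑ over the support of c of (c d : 𝕜) • (d : X))`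
(`Finsupp.sum`; to have a zero in `Q` either add `0` to `Q` or use `Finset (D × Q)` /
`List (D × Q)` instead of `Finsupp`: e.g. `S := range (fun l : List (D × Q) => (l.map fun p => (p.2 : 𝕜) • (p.1 : X)).sum)`).
Cardinality: `#(List (D × Q)) = max ℵ₀ #(D × Q) = #D` as `D` is infinite and `Q` countable
(`Cardinal.mk_list_eq_max_mk_aleph0` or `mk_list_eq_mk`, `Cardinal.mul_eq_max`, `Cardinal.mk_range_le`, `Cardinal.mk_le_aleph0`).
Density: `closure S` contains `Submodule.span 𝕜 D`: by `Submodule.span_induction` show that `closure S` is closed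
under addition (`S` is closed under addition by list append; then `closure` of an additive submonoid:
use `AddSubmonoid.topologicalClosure`) and contains `a • d` for all `a : 𝕜`, `d ∈ D`
(`a` is a limit of elements of `Q`; `continuous_id.smul continuous_const`, `map_mem_closure`/`Dense.closure_eq`), and every element of the span
is a finite sum of such `a • d` (`Submodule.span_induction` with smul case handled through `Finsupp.mem_span_iff_linearCombination`,
or `mem_span_set`). Then `closure S ⊇ closure (span) = univ`. -/
theorem exists_dense_card_le (D : Set X) (hD : D.Infinite)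
    (h : (Submodule.span 𝕜 D).topologicalClosure = ⊤) :
    ∃ S : Set X, Dense S ∧ #S ≤ #D := by
  classical
  let F : List (D × ℕ) → X := fun l => (l.map fun p => (denseSeq 𝕜 p.2) • (p.1 : X)).sum
  let A : AddSubmonoid X :=
    { carrier := range F
      zero_mem' := ⟨[], by simp [F]⟩
      add_mem' := by
        rintro _ _ ⟨l1, rfl⟩ ⟨l2, rfl⟩
        exact ⟨l1 ++ l2, by simp [F]⟩ }
  refine ⟨range F, ?_, ?_⟩
  · have h1 : ∀ (a : 𝕜) (d : X), d ∈ D → a • d ∈ closure (range F) := by
      intro a d hd
      have hc : Continuous (fun a : 𝕜 => a • d) := continuous_id.smul continuous_const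
      have ha : a ∈ closure (range (denseSeq 𝕜)) := (denseRange_denseSeq 𝕜) a
      refine map_mem_closure (f := fun a : 𝕜 => a • d) hc ha ?_
      rintro _ ⟨n, rfl⟩
      exact ⟨[(⟨d, hd⟩, n)], by simp [F]⟩
    have h2 : (Submodule.span 𝕜 D).toAddSubmonoid ≤ A.topologicalClosure := by
      rw [Submodule.span_eq_closure, AddSubmonoid.closure_le]
      rintro _ ⟨a, -, d, hd, rfl⟩
      exact h1 a d hd
    have h3 : (Submodule.span 𝕜 D : Set X) ⊆ closure (range F) := fun x hx => h2 hx
    have h4 : closure (Submodule.span 𝕜 D : Set X) = Set.univ := by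
      rw [← Submodule.topologicalClosure_coe, h]; rfl
    rw [dense_iff_closure_eq]
    apply eq_univ_of_univ_subset
    rw [← h4]
    exact closure_minimal h3 isClosed_closure
  · have : Infinite D := hD.to_subtype
    calc #(range F) ≤ #(List (D × ℕ)) := mk_range_le
      _ = #(D × ℕ) := mk_list_eq_mk _
      _ = #D := by
        rw [mk_prod]
        simp only [lift_uzero, mk_nat, lift_aleph0]
        exact mul_aleph0_eq (aleph0_le_mk D)

end Vale.Agent.Lib.P129
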