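import Mathlib

/-! P129, leaf (N2), backup: the closed span of an infinite set `D` has a dense subset of
cardinality `≤ #D`. -/

namespace Vale.Agent.Lib.P129

open TopologicalSpace Set Function Filter Topology Cardinal

variable {𝕜 : Type*} [RCLike 𝕜] {X : Type*} [NormedAddCommGroup X] [NormedSpace 𝕜 X]

/-- (N2), independent proof: finite sums of `u n • d`, `u` a dense sequence of scalars. -/
theorem exists_dense_card_le2 (D : Set X) (hD : D.Infinite)
    (h : (Submodule.span 𝕜 D).topologicalClosure = ⊤) :
    ∃ S : Set X, Dense S ∧ #S ≤ #D := by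
  classical
  let u : ℕ → 𝕜 := TopologicalSpace.denseSeq 𝕜
  have hu : DenseRange u := TopologicalSpace.denseRange_denseSeq 𝕜
  let F : List (D × ℕ) → X := fun l => (l.map fun p => u p.2 • (p.1 : X)).sum
  let M : AddSubmonoid X :=
    { carrier := Set.range F
      zero_mem' := ⟨[], by simp [F]⟩
      add_mem' := by
        rintro _ _ ⟨l1, rfl⟩ ⟨l2, rfl⟩
        exact ⟨l1 ++ l2, by simp [F]⟩ }
  have hsm : ∀ (a : 𝕜) (d : X), d ∈ D → a • d ∈ M.topologicalClosure := by
    intro a d hd
    have hcont : Continuous (fun q : 𝕜 => q • d) := continuous_id.smul continuous_const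
    have hmaps : Set.MapsTo (fun q : 𝕜 => q • d) (Set.range u) (Set.range F) := by
      rintro _ ⟨n, rfl⟩
      exact ⟨[(⟨d, hd⟩, n)], by simp [F]⟩
    have h1 : (fun q : 𝕜 => q • d) a ∈ closure (Set.range F) :=
      map_mem_closure (f := fun q : 𝕜 => q • d) hcont (hu a) hmaps
    exact h1
  have hspan : ((Submodule.span 𝕜 D : Submodule 𝕜 X) : Set X) ⊆ closure (Set.range F) := by
    intro x hx
    obtain ⟨c, hc, rfl⟩ := Submodule.mem_span_set.1 hx
    have h1 : (c.sum fun mi r => r • mi) ∈ M.topologicalClosure :=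
      AddSubmonoid.sum_mem _ (fun mi hmi => hsm _ _ (hc hmi))
    exact h1
  refine ⟨Set.range F, ?_, ?_⟩
  · intro x
    have hx : x ∈ (Submodule.span 𝕜 D).topologicalClosure := by
      rw [h]
      trivial
    exact closure_minimal hspan isClosed_closure hx
  · have : Infinite D := hD.to_subtype
    calc #(Set.range F) ≤ #(List (D × ℕ)) := Cardinal.mk_range_le
      _ = #(D × ℕ) := Cardinal.mk_list_eq_mk _
      _ = #D := by
        rw [Cardinal.mk_prod]
        simp only [Cardinal.lift_uzero, Cardinal.mk_nat, Cardinal.lift_aleph0]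
        exact Cardinal.mul_aleph0_eq (Cardinal.aleph0_le_mk D)

end Vale.Agent.Lib.P129
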