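import Vale.Agent.Lib.P129.TSDef

/-! P129, leaf (K2). -/

namespace Vale.Agent.Lib.P129

open TopologicalSpace Set Function Filter Topology

variable {𝕜 : Type*} [RCLike 𝕜] {E : Type*} [NormedAddCommGroup E] [NormedSpace 𝕜 E]
  {G : Type*} [NormedAddCommGroup G] [NormedSpace 𝕜 G]

/-- (K2) triangular systems pull back along open continuous linear surjections.
PLAN: from `⟨g, y, h1, h2, h3⟩` take `f k := (g k).comp S`, `x j := (hs (y j)).choose`;
the set `{v | ∃ m, ∀ k ≥ m, f k v = 0}` is `S ⁻¹' {w | ∃ m, ∀ k ≥ m, g k w = 0}`, dense by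
`Dense.preimage h3 ho`. -/
theorem HasTS.pullback (S : E →L[𝕜] G) (hs : Surjective S) (ho : IsOpenMap S)
    (h : HasTS 𝕜 G) : HasTS 𝕜 E := by
  obtain ⟨g, y, h1, h2, h3⟩ := h
  have hx : ∀ j, S ((hs (y j)).choose) = y j := fun j => (hs (y j)).choose_spec
  refine ⟨fun k => (g k).comp S, fun j => (hs (y j)).choose, ?_, ?_, ?_⟩
  · intro j k hjk
    simp only [ContinuousLinearMap.comp_apply, hx]
    exact h1 j k hjk
  · intro j
    simp only [ContinuousLinearMap.comp_apply, hx]
    exact h2 j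
  · have hd : Dense (S ⁻¹' {w : G | ∃ m, ∀ k, m ≤ k → g k w = 0}) := Dense.preimage h3 ho
    exact hd

end Vale.Agent.Lib.P129
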