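import Vale.Agent.Lib.P129.TSSep
import Vale.Agent.Lib.P129.TSPull

/-! P129, three-space theorem, case 1. -/

namespace Vale.Agent.Lib.P129

open TopologicalSpace Set Function Filter Topology

variable {𝕜 : Type*} [RCLike 𝕜] {X : Type*} [NormedAddCommGroup X] [NormedSpace 𝕜 X]

/-- (M1) PLAN: `haveI := hN`. `S := Y.liftQL N.mkQL _ : X ⧸ Y →L X ⧸ N` (needs `Y ≤ ker N.mkQL`, from
`hYN` and `Submodule.ker_mkQ`); `S (Y.mkQ x) = N.mkQ x`. `S` is onto (as `N.mkQ` is), and open: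
for `U` open, `S '' U = N.mkQ '' (Y.mkQ ⁻¹' U)`, open by `Submodule.isOpenMap_mkQ`
(or: `IsOpenMap.of_comp`-style lemma `IsOpenQuotientMap`/`Topology.IsQuotientMap` ...).
`X ⧸ N` is separable: `M.liftQL N.mkQL _ : X ⧸ M →L X ⧸ N` is continuous and onto
(`Surjective.denseRange.separableSpace`). Then
`HasTS.pullback S _ _ (hasTS_of_separable hinf)`. -/
theorem case1 (Y M N : Submodule 𝕜 X) [IsClosed (Y : Set X)] (hN : IsClosed (N : Set X))
    (hsep : SeparableSpace (X ⧸ M)) (hMN : M ≤ N) (hYN : Y ≤ N)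
    (hinf : ¬ FiniteDimensional 𝕜 (X ⧸ N)) : HasTS 𝕜 (X ⧸ Y) := by
  have := hN
  have hY : Y ≤ (N.mkQL).ker := by
    intro x hx
    rw [LinearMap.mem_ker]
    simpa using hYN hx
  have hM : M ≤ (N.mkQL).ker := by
    intro x hx
    rw [LinearMap.mem_ker]
    simpa using hMN hx
  let S : X ⧸ Y →L[𝕜] X ⧸ N := Y.liftQL N.mkQL hY
  have hS : ∀ x, S (Y.mkQ x) = N.mkQ x := fun x => by
    simp [S, Submodule.liftQL_apply]
  have hsurj : Surjective S := by
    intro z
    obtain ⟨x, rfl⟩ := N.mkQ_surjective z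
    exact ⟨Y.mkQ x, hS x⟩
  have hopen : IsOpenMap S := by
    intro U hU
    have h : S '' U = N.mkQ '' (Y.mkQ ⁻¹' U) := by
      ext z
      constructor
      · rintro ⟨u, hu, rfl⟩
        obtain ⟨x, rfl⟩ := Y.mkQ_surjective u
        exact ⟨x, hu, (hS x).symm⟩
      · rintro ⟨x, hx, rfl⟩
        exact ⟨Y.mkQ x, hx, hS x⟩
    rw [h]
    exact N.isOpenMap_mkQ _ (hU.preimage Y.mkQL.continuous)
  have : SeparableSpace (X ⧸ N) := by
    let T : X ⧸ M →L[𝕜] X ⧸ N := M.liftQL N.mkQL hM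
    have hT : Surjective T := by
      intro z
      obtain ⟨x, rfl⟩ := N.mkQ_surjective z
      exact ⟨M.mkQ x, by simp [T, Submodule.liftQL_apply]⟩
    exact hT.denseRange.separableSpace T.continuous
  exact HasTS.pullback S hsurj hopen (hasTS_of_separable hinf)

end Vale.Agent.Lib.P129
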