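import Vale.Agent.Lib.P129.TSSep
import Vale.Agent.Lib.P129.TSPull

/-! P129, three-space theorem, case 2. -/

namespace Vale.Agent.Lib.P129

open TopologicalSpace Set Function Filter Topology

variable {𝕜 : Type*} [RCLike 𝕜] {X : Type*} [NormedAddCommGroup X] [NormedSpace 𝕜 X]
  [CompleteSpace X]

/-- (M2) PLAN: `R := Y.map M.mkQ : Submodule 𝕜 (X ⧸ M)`. `R` is closed: `M.mkQ` is a quotient map
(`Submodule.isQuotientMap_mkQ`, `Topology.IsQuotientMap.isClosed_preimage`) and
`M.mkQ ⁻¹' R = M ⊔ Y` (`Submodule.comap_map_mkQ`). So `R` is complete; `Y` is complete (closed in `X`).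
`R` is separable (subspace of a separable metric space: `UniformSpace.secondCountable_of_separable`
then instances). `R` is not finite-dimensional: `(X ⧸ M) ⧸ R ≃ₗ X ⧸ (M ⊔ Y)`
(`Submodule.quotientQuotientEquivQuotientSup`) is finite-dimensional, so otherwise `X ⧸ M` would be
(`Module.Finite.of_submodule_quotient R`). `A := (M.mkQL.comp Y.subtypeL).codRestrict R _ : Y →L R` is
onto, hence open (`ContinuousLinearMap.isOpenMap A hsurj`). Conclude with
`HasTS.pullback A _ _ (hasTS_of_separable _)`. -/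
theorem case2 (Y M : Submodule 𝕜 X) [IsClosed (Y : Set X)] [IsClosed (M : Set X)]
    (hsep : SeparableSpace (X ⧸ M)) (hinf : ¬ FiniteDimensional 𝕜 (X ⧸ M))
    (hcl : IsClosed ((M ⊔ Y : Submodule 𝕜 X) : Set X))
    (hfin : FiniteDimensional 𝕜 (X ⧸ (M ⊔ Y))) : HasTS 𝕜 Y := by
  classical
  set R : Submodule 𝕜 (X ⧸ M) := Y.map M.mkQ with hR
  -- `R` is closed
  have hRcl : IsClosed (R : Set (X ⧸ M)) := by
    rw [← (Submodule.isQuotientMap_mkQ M).isClosed_preimage]
    have : (M.mkQ ⁻¹' (R : Set (X ⧸ M))) = ((M ⊔ Y : Submodule 𝕜 X) : Set X) := by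
      rw [← Submodule.comap_map_mkQ M Y]
      rfl
    rw [this]
    exact hcl
  have : CompleteSpace (X ⧸ M) := inferInstance
  have : CompleteSpace R := hRcl.completeSpace_coe
  have : CompleteSpace Y := (inferInstance : IsClosed (Y : Set X)).completeSpace_coe
  have : SecondCountableTopology (X ⧸ M) := UniformSpace.secondCountable_of_separable _
  have : SeparableSpace R := inferInstance
  -- `R` is not finite-dimensional
  have hRinf : ¬ FiniteDimensional 𝕜 R := by
    intro hRf
    apply hinf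
    have : Module.Finite 𝕜 R := hRf
    have : Module.Finite 𝕜 ((X ⧸ M) ⧸ R) :=
      Module.Finite.equiv (Submodule.quotientQuotientEquivQuotientSup M Y).symm
    exact Module.Finite.of_submodule_quotient R
  -- the map
  have hmem : ∀ y : Y, (M.mkQL.comp Y.subtypeL) y ∈ R := by
    intro y
    exact Submodule.mem_map_of_mem y.2
  set A : Y →L[𝕜] R := (M.mkQL.comp Y.subtypeL).codRestrict R hmem with hA
  have hsurj : Surjective A := by
    rintro ⟨r, hr⟩
    obtain ⟨y, hy, rfl⟩ := Submodule.mem_map.1 hr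
    exact ⟨⟨y, hy⟩, Subtype.ext rfl⟩
  exact HasTS.pullback A hsurj (ContinuousLinearMap.isOpenMap A hsurj) (hasTS_of_separable hRinf)

end Vale.Agent.Lib.P129
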