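import Vale.Agent.Lib.P129.TSRange

/-! P129, three-space theorem, case 3. -/

namespace Vale.Agent.Lib.P129

open TopologicalSpace Set Function Filter Topology

variable {𝕜 : Type*} [RCLike 𝕜] {X : Type*} [NormedAddCommGroup X] [NormedSpace 𝕜 X]
  [CompleteSpace X]

/-- (M3) PLAN: `T := Y.mkQL.comp M.subtypeL : M →L X ⧸ Y` (`M` complete since closed, `X ⧸ Y` complete).
`range T = (M.map Y.mkQ : Set _)`, and `Y.mkQ ⁻¹' range T = Y ⊔ M` (`Submodule.comap_map_mkQ`,
`sup_comm`), which is not closed, so `range T` is not closed (continuity of `Y.mkQ`).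
Finite codimension of `C := (LinearMap.range T).topologicalClosure`: the linear map
`C.mkQ ∘ₗ Y.mkQ : X → (X ⧸ Y) ⧸ C` is onto and its kernel `C.comap Y.mkQ` is a closed submodule containing
`M` and `Y`, hence contains `(M ⊔ Y).topologicalClosure` (`Submodule.topologicalClosure_minimal`); so it
factors (`Submodule.liftQ`) through an onto linear map `X ⧸ (M ⊔ Y).topologicalClosure → (X ⧸ Y) ⧸ C`;
`Module.Finite.of_surjective`. Conclude with `hasTS_of_range_not_closed T _ _`. -/
theorem case3 (Y M : Submodule 𝕜 X) [IsClosed (Y : Set X)] [IsClosed (M : Set X)]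
    (hncl : ¬ IsClosed ((M ⊔ Y : Submodule 𝕜 X) : Set X))
    (hfin : FiniteDimensional 𝕜 (X ⧸ (M ⊔ Y).topologicalClosure)) : HasTS 𝕜 (X ⧸ Y) := by
  have hMc : IsClosed (M : Set X) := inferInstance
  have : CompleteSpace M := hMc.completeSpace_coe
  set T : M →L[𝕜] X ⧸ Y := Y.mkQL.comp M.subtypeL with hT
  have hTapp : ∀ m : M, T m = Y.mkQ (m : X) := fun _ => rfl
  have hcont : Continuous (Y.mkQ : X → X ⧸ Y) := Y.mkQL.continuous
  have hrange : (range T : Set (X ⧸ Y)) = ((M.map Y.mkQ : Submodule 𝕜 (X ⧸ Y)) : Set (X ⧸ Y)) := by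
    ext z
    constructor
    · rintro ⟨m, rfl⟩
      exact ⟨m, m.2, rfl⟩
    · rintro ⟨m, hm, rfl⟩
      exact ⟨⟨m, hm⟩, rfl⟩
  have hnc : ¬ IsClosed (range T) := by
    intro hc
    apply hncl
    have h1 : ((M ⊔ Y : Submodule 𝕜 X) : Set X) = (Y.mkQ : X → X ⧸ Y) ⁻¹' (range T) := by
      rw [hrange]
      have h2 : (M.map Y.mkQ).comap Y.mkQ = Y ⊔ M := Submodule.comap_map_mkQ Y M
      rw [sup_comm, ← h2]
      rfl
    rw [h1]
    exact hc.preimage hcont
  refine hasTS_of_range_not_closed T hnc ?_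
  set C : Submodule 𝕜 (X ⧸ Y) := (LinearMap.range (T : M →ₗ[𝕜] X ⧸ Y)).topologicalClosure with hC
  have hCcl : IsClosed (C : Set (X ⧸ Y)) := Submodule.isClosed_topologicalClosure _
  have hle : LinearMap.range (T : M →ₗ[𝕜] X ⧸ Y) ≤ C := Submodule.le_topologicalClosure _
  set g : X →ₗ[𝕜] (X ⧸ Y) ⧸ C := C.mkQ ∘ₗ Y.mkQ with hg
  have hgs : Function.Surjective g :=
    (Submodule.mkQ_surjective C).comp (Submodule.mkQ_surjective Y)
  have hker : LinearMap.ker g = C.comap Y.mkQ := by
    rw [hg, LinearMap.ker_comp, Submodule.ker_mkQ]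
  have hclosed : IsClosed ((C.comap Y.mkQ : Submodule 𝕜 X) : Set X) := hCcl.preimage hcont
  have hsup : M ⊔ Y ≤ C.comap Y.mkQ := by
    refine sup_le ?_ ?_
    · intro m hm
      exact hle ⟨⟨m, hm⟩, rfl⟩
    · intro y hy
      have : Y.mkQ y = 0 := by simpa using hy
      change Y.mkQ y ∈ C
      rw [this]
      exact C.zero_mem
  have hN : (M ⊔ Y).topologicalClosure ≤ LinearMap.ker g := by
    rw [hker]
    exact Submodule.topologicalClosure_minimal _ hsup hclosed
  have hsurj : Function.Surjective ((M ⊔ Y).topologicalClosure.liftQ g hN) := by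
    rw [← LinearMap.range_eq_top, Submodule.range_liftQ, LinearMap.range_eq_top]
    exact hgs
  exact Module.Finite.of_surjective _ hsurj

end Vale.Agent.Lib.P129
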