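import Vale.Agent.Lib.P129.TSDef

/-! P129, leaf (N1): an increasing sequence of proper closed subspaces with dense union gives a
triangular system. -/

namespace Vale.Agent.Lib.P129

open TopologicalSpace Set Function Filter Topology

variable {𝕜 : Type*} [RCLike 𝕜] {X : Type*} [NormedAddCommGroup X] [NormedSpace 𝕜 X]

/-- (N1) PLAN. Step 1: for every `n` there is `m > n` with `Y n < Y m` (otherwise `Y m = Y n` for all `m ≥ n`,
so the union is `Y n`, which is closed and dense, hence `⊤`: `IsClosed.closure_eq`, `Dense.closure_eq`).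
Step 2: by recursion get a strictly monotone `φ : ℕ → ℕ` with `Y (φ j) < Y (φ (j+1))`
(e.g. `φ 0 = 0`, `φ (j+1) = choose ...`), and points `x j ∈ Y (φ (j+1))`, `x j ∉ Y (φ j)`
(`SetLike.exists_of_lt`). Step 3: `exists_dual_vanishing (Y (φ j)) (hcl _) (hx j)` gives `f j` vanishing on
`Y (φ j)` with `f j (x j) = 1`. Step 4: `IsTriangular f x`: for `j < k`, `x j ∈ Y (φ (j+1)) ≤ Y (φ k)`, so
`f k (x j) = 0`; `f j (x j) = 1 ≠ 0`; the set `{y | ∃ m, ∀ k ≥ m, f k y = 0}` contains `⋃ n, Y n`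
(for `y ∈ Y n` take `m = n`, since `n ≤ φ n ≤ φ k`: `StrictMono.id_le`), so it is dense (`Dense.mono`). -/
theorem hasTS_of_chain (Y : ℕ → Submodule 𝕜 X) (hmono : Monotone Y)
    (hcl : ∀ n, IsClosed (Y n : Set X)) (hne : ∀ n, Y n ≠ ⊤)
    (hd : Dense (⋃ n, (Y n : Set X))) : HasTS 𝕜 X := by
  have step1 : ∀ n, ∃ m, n < m ∧ Y n < Y m := by
    intro n
    by_contra hcon
    have hall : ∀ m, Y m ≤ Y n := by
      intro m
      rcases le_or_gt m n with hmn | hmn
      · exact hmono hmn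
      · by_contra hle
        exact hcon ⟨m, hmn, lt_of_le_not_ge (hmono hmn.le) hle⟩
    have hsub : (⋃ m, (Y m : Set X)) ⊆ (Y n : Set X) := by
      intro y hy
      obtain ⟨m, hm⟩ := Set.mem_iUnion.1 hy
      exact hall m hm
    have hdn : Dense (Y n : Set X) := hd.mono hsub
    have huniv : (Y n : Set X) = Set.univ := by
      rw [← (hcl n).closure_eq]
      exact hdn.closure_eq
    apply hne n
    rw [eq_top_iff]
    intro y _
    have : y ∈ (Y n : Set X) := by rw [huniv]; exact Set.mem_univ y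
    exact this
  choose next hnext1 hnext2 using step1
  set φ : ℕ → ℕ := fun j => next^[j] 0 with hφ
  have hφs : ∀ j, φ (j + 1) = next (φ j) := fun j => Function.iterate_succ_apply' next j 0
  have hφmono : StrictMono φ := strictMono_nat_of_lt_succ (fun j => by
    rw [hφs]
    exact hnext1 _)
  have hlt : ∀ j, Y (φ j) < Y (φ (j + 1)) := fun j => by
    rw [hφs]
    exact hnext2 _
  have hex : ∀ j, ∃ x ∈ Y (φ (j + 1)), x ∉ Y (φ j) := fun j => SetLike.exists_of_lt (hlt j)
  choose x hx1 hx2 using hex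
  have hf : ∀ j, ∃ g : X →L[𝕜] 𝕜, (∀ h ∈ Y (φ j), g h = 0) ∧ g (x j) = 1 :=
    fun j => exists_dual_vanishing (Y (φ j)) (hcl _) (hx2 j)
  choose f hf1 hf2 using hf
  refine ⟨f, x, ?_, ?_, ?_⟩
  · intro j k hjk
    apply hf1 k
    exact hmono (hφmono.monotone (Nat.succ_le_of_lt hjk)) (hx1 j)
  · intro j
    rw [hf2 j]
    exact one_ne_zero
  · refine hd.mono ?_
    intro y hy
    obtain ⟨n, hn⟩ := Set.mem_iUnion.1 hy
    refine ⟨n, fun k hk => hf1 k y ?_⟩
    exact hmono (hk.trans (hφmono.id_le k)) hn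

end Vale.Agent.Lib.P129
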