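import Vale.Agent.Lib.P129.TSDef

/-! P129, leaf (N1), backup: an increasing sequence of proper closed subspaces with dense union
gives a triangular system. -/

namespace Vale.Agent.Lib.P129

open TopologicalSpace Set Function Filter Topology

variable {𝕜 : Type*} [RCLike 𝕜] {X : Type*} [NormedAddCommGroup X] [NormedSpace 𝕜 X]

theorem hasTS_of_chain2 (Y : ℕ → Submodule 𝕜 X) (hmono : Monotone Y)
    (hcl : ∀ n, IsClosed (Y n : Set X)) (hne : ∀ n, Y n ≠ ⊤)
    (hd : Dense (⋃ n, (Y n : Set X))) : HasTS 𝕜 X := by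
  have step1 : ∀ n, ∃ m, n < m ∧ Y n < Y m := by
    intro n
    by_contra hcon
    have hcon' : ∀ m, n < m → ¬ Y n < Y m := fun m hm hlt => hcon ⟨m, hm, hlt⟩
    have hsub : (⋃ m, (Y m : Set X)) ⊆ (Y n : Set X) := by
      intro y hy
      obtain ⟨m, hm⟩ := Set.mem_iUnion.1 hy
      rcases le_or_gt m n with hmn | hmn
      · exact hmono hmn hm
      · have h1 : Y n ≤ Y m := hmono hmn.le
        have h2 : ¬ Y n < Y m := hcon' m hmn
        have h3 : Y m ≤ Y n := by
          by_contra h4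
          exact h2 (lt_of_le_not_ge h1 h4)
        exact h3 hm
    have hdn : Dense (Y n : Set X) := hd.mono hsub
    apply hne n
    rw [eq_top_iff]
    intro y _
    have h5 : y ∈ closure (Y n : Set X) := hdn y
    rwa [(hcl n).closure_eq] at h5
  choose g hg1 hg2 using step1
  let φ : ℕ → ℕ := fun j => g^[j] 0
  have hφs : ∀ j, φ (j + 1) = g (φ j) := fun j => Function.iterate_succ_apply' g j 0
  have hφ : StrictMono φ := strictMono_nat_of_lt_succ (fun j => by
    rw [hφs]
    exact hg1 _)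
  have hx : ∀ j, ∃ x ∈ Y (φ (j + 1)), x ∉ Y (φ j) := fun j => by
    rw [hφs]
    exact SetLike.exists_of_lt (hg2 _)
  choose x hx1 hx2 using hx
  have hf : ∀ j, ∃ f : X →L[𝕜] 𝕜, (∀ h ∈ Y (φ j), f h = 0) ∧ f (x j) = 1 :=
    fun j => exists_dual_vanishing (Y (φ j)) (hcl _) (hx2 j)
  choose f hf1 hf2 using hf
  refine ⟨f, x, ?_, ?_, ?_⟩
  · intro j k hjk
    exact hf1 k _ (hmono (hφ.monotone (Nat.succ_le_of_lt hjk)) (hx1 j))
  · intro j
    rw [hf2]
    exact one_ne_zero
  · refine hd.mono ?_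
    intro y hy
    obtain ⟨n, hn⟩ := Set.mem_iUnion.1 hy
    exact ⟨n, fun k hk => hf1 k _ (hmono (hk.trans (hφ.le_apply)) hn)⟩

end Vale.Agent.Lib.P129
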