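import Mathlib

/-! P129, leaf (N3): if the density character has countable cofinality, some dense set is an increasing
countable union of sets of cardinality smaller than the density character. Pure set theory/topology. -/

namespace Vale.Agent.Lib.P129

open TopologicalSpace Set Function Filter Topology Cardinal

universe u

/-- the density character: the least cardinality of a dense subset. -/
noncomputable def dens (X : Type u) [TopologicalSpace X] : Cardinal.{u} :=
  sInf {c : Cardinal.{u} | ∃ S : Set X, Dense S ∧ #S = c}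

private theorem mk_Iic_lt_aux {c : Cardinal.{u}} (hc : ℵ₀ ≤ c) (i : c.ord.ToType) :
    #(Iic i) < c := by
  have h1 : #(Iio i) < c := by simpa using Cardinal.mk_Iio_lt i
  have h2 : #(Iic i) ≤ #(Iio i) + 1 := by
    rw [← Set.Iio_insert]
    exact Cardinal.mk_insert_le
  exact h2.trans_lt (Cardinal.add_lt_of_lt hc h1 (Cardinal.one_lt_aleph0.trans_le hc))

/-- (N3) PLAN. `κ := dens X`. The set in the definition is nonempty (`S = univ`), so `csInf_mem` gives a dense `S₀` with
`#S₀ = κ`, and `csInf_le'` gives `κ ≤ #S` for every dense `S`. So it suffices to find a monotone `E : ℕ → Set S₀` with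
`⋃ n, E n = univ` and `#(E n) < κ`, and put `D n := Subtype.val '' E n` (`Cardinal.mk_image_eq Subtype.val_injective`).
`κ` is infinite: `hcof` and `Ordinal.aleph0_le_cof` show that `κ.ord` is a limit ordinal, so `ℵ₀ ≤ κ`
(`Cardinal.ord_lt_omega0`/`Cardinal.aleph0_le...`; or: if `κ < ℵ₀` then `κ.ord` is a natural number, whose cofinality is `0` or `1`).
Let `α := κ.ord.toType` (well-ordered, `#α = κ` by `Cardinal.mk_ord_toType`), `e : S₀ ≃ α` from `Cardinal.eq`.
`Ordinal.cof_eq (· < · : α → α → Prop)` gives an unbounded `T : Set α` with `#T = cof (type (<)) = ℵ₀` (`Ordinal.type_toType`),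
so `T` is countable and nonempty: `T = range a`, `a : ℕ → α` (`Set.Countable.exists_eq_range`).
`E n := e ⁻¹' {x | ∃ k ≤ n, x ≤ a k}`. Monotone: clear. Union is everything: unboundedness gives for every `x` some
`t ∈ T` with `¬ t < x`, i.e. `x ≤ t`. Cardinality: `{x | ∃ k ≤ n, x ≤ a k} = ⋃ k ∈ Finset.range (n+1), Iic (a k)`, each
`#(Iic i) ≤ #(Iio i) + 1 < κ` (`Cardinal.mk_Iio_ord_toType`, `Cardinal.add_lt_of_lt`), and a finite union of sets of
cardinality `< κ` (`κ` infinite) has cardinality `< κ` (induction on `n` with `Cardinal.mk_union_le`, `Cardinal.add_lt_of_lt`). -/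
theorem exists_small_union (X : Type u) [TopologicalSpace X] (hcof : (dens X).ord.cof = ℵ₀) :
    ∃ D : ℕ → Set X, Monotone D ∧ Dense (⋃ n, D n) ∧
      ∀ n, ∀ S : Set X, Dense S → #(D n) < #S := by
  have hne : {c : Cardinal.{u} | ∃ S : Set X, Dense S ∧ #S = c}.Nonempty :=
    ⟨#(Set.univ : Set X), Set.univ, dense_univ, rfl⟩
  obtain ⟨S₀, hS₀, hcard⟩ : ∃ S : Set X, Dense S ∧ #S = dens X := csInf_mem hne
  have hle : ∀ S : Set X, Dense S → dens X ≤ #S := fun S hS => csInf_le' ⟨S, hS, rfl⟩
  have hκ : ℵ₀ ≤ dens X := hcof ▸ Ordinal.cof_ord_le (dens X)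
  have hα : #S₀ = #((dens X).ord.ToType) := by rw [hcard, Cardinal.mk_ord_toType]
  obtain ⟨e⟩ := Cardinal.eq.1 hα
  obtain ⟨T, hT, hTc⟩ := Order.exists_cof_eq (dens X).ord.ToType
  rw [Ordinal.cof_toType, hcof] at hTc
  have hTcount : T.Countable := Cardinal.le_aleph0_iff_set_countable.1 hTc.le
  have hTne : T.Nonempty := by
    by_contra h
    rw [Set.not_nonempty_iff_eq_empty] at h
    rw [h, Cardinal.mk_eq_zero] at hTc
    exact Cardinal.aleph0_ne_zero hTc.symm
  obtain ⟨a, ha⟩ := hTcount.exists_eq_range hTne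
  set A : ℕ → Set (dens X).ord.ToType := fun n => {x | ∃ k ≤ n, x ≤ a k} with hA
  have hAcard : ∀ n, #(A n) < dens X := by
    intro n
    induction n with
    | zero =>
      have hsub : A 0 ⊆ Iic (a 0) := by
        rintro x ⟨k, hk, hx⟩
        have : k = 0 := Nat.le_zero.1 hk
        subst this
        exact hx
      exact (Cardinal.mk_le_mk_of_subset hsub).trans_lt (mk_Iic_lt_aux hκ _)
    | succ n ih =>
      have hsub : A (n + 1) ⊆ A n ∪ Iic (a (n + 1)) := by
        rintro x ⟨k, hk, hx⟩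
        rcases Nat.lt_or_ge k (n + 1) with h | h
        · exact Or.inl ⟨k, Nat.lt_succ_iff.1 h, hx⟩
        · have : k = n + 1 := le_antisymm hk h
          subst this
          exact Or.inr hx
      exact ((Cardinal.mk_le_mk_of_subset hsub).trans (Cardinal.mk_union_le _ _)).trans_lt
        (Cardinal.add_lt_of_lt hκ ih (mk_Iic_lt_aux hκ _))
  refine ⟨fun n => (fun x => ((e.symm x : S₀) : X)) '' A n, ?_, ?_, ?_⟩
  · intro m n hmn
    apply Set.image_mono
    rintro x ⟨k, hk, hx⟩
    exact ⟨k, hk.trans hmn, hx⟩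
  · apply hS₀.mono
    intro s hs
    obtain ⟨t, ht, hxt⟩ := hT (e ⟨s, hs⟩)
    rw [ha] at ht
    obtain ⟨k, rfl⟩ := ht
    rw [Set.mem_iUnion]
    refine ⟨k, e ⟨s, hs⟩, ⟨k, le_refl k, hxt⟩, ?_⟩
    simp
  · intro n S hS
    exact (Cardinal.mk_image_le.trans_lt (hAcard n)).trans_le (hle S hS)

end Vale.Agent.Lib.P129
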