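import Vale.Agent.Lib.P129.CofSeq

/-! P129, leaf (N3), second independent proof. -/

namespace Vale.Agent.Lib.P129

open TopologicalSpace Set Function Filter Topology Cardinal

universe u

theorem mk_Iic_ord_lt {κ : Cardinal.{u}} (hκ : ℵ₀ ≤ κ) (i : κ.ord.ToType) : #(Iic i) < κ := by
  have h1 : #(Iio i) < κ := by simpa using Cardinal.mk_Iio_lt i
  have h2 : #(Iic i) ≤ #(Iio i) + 1 := by
    rw [← Set.Iio_insert]
    exact Cardinal.mk_insert_le
  exact lt_of_le_of_lt h2 (Cardinal.add_lt_of_lt hκ h1 (Cardinal.one_lt_aleph0.trans_le hκ))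

theorem mk_initial_lt {κ : Cardinal.{u}} (hκ : ℵ₀ ≤ κ) (a : ℕ → κ.ord.ToType) (n : ℕ) :
    #{x : κ.ord.ToType | ∃ k ≤ n, x ≤ a k} < κ := by
  induction n with
  | zero =>
    have : {x : κ.ord.ToType | ∃ k ≤ 0, x ≤ a k} = Iic (a 0) := by
      ext x
      simp
    rw [this]
    exact mk_Iic_ord_lt hκ _
  | succ n ih =>
    have : {x : κ.ord.ToType | ∃ k ≤ n + 1, x ≤ a k}
        ⊆ {x : κ.ord.ToType | ∃ k ≤ n, x ≤ a k} ∪ Iic (a (n + 1)) := by
      rintro x ⟨k, hk, hx⟩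
      rcases Nat.lt_or_ge k (n + 1) with h | h
      · exact Or.inl ⟨k, Nat.lt_succ_iff.mp h, hx⟩
      · have : k = n + 1 := le_antisymm hk h
        subst this
        exact Or.inr hx
    refine lt_of_le_of_lt (Cardinal.mk_le_mk_of_subset this) ?_
    refine lt_of_le_of_lt (Cardinal.mk_union_le _ _) ?_
    exact Cardinal.add_lt_of_lt hκ ih (mk_Iic_ord_lt hκ _)

theorem exists_small_union2 (X : Type u) [TopologicalSpace X] (hcof : (dens X).ord.cof = ℵ₀) :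
    ∃ D : ℕ → Set X, Monotone D ∧ Dense (⋃ n, D n) ∧
      ∀ n, ∀ S : Set X, Dense S → #(D n) < #S := by
  obtain ⟨κ, hκdef⟩ : ∃ κ, κ = dens X := ⟨_, rfl⟩
  rw [← hκdef] at hcof
  have hκ : ℵ₀ ≤ κ := hcof ▸ Ordinal.cof_ord_le κ
  have hne : {c : Cardinal.{u} | ∃ S : Set X, Dense S ∧ #S = c}.Nonempty :=
    ⟨_, univ, dense_univ, rfl⟩
  obtain ⟨S₀, hS₀d, hS₀c⟩ : ∃ S : Set X, Dense S ∧ #S = κ := by
    have := csInf_mem hne
    rw [hκdef]
    exact this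
  have hle : ∀ S : Set X, Dense S → κ ≤ #S := by
    intro S hS
    rw [hκdef]
    exact csInf_le' ⟨S, hS, rfl⟩
  obtain ⟨e⟩ : Nonempty (S₀ ≃ κ.ord.ToType) :=
    Cardinal.eq.mp (hS₀c.trans (Cardinal.mk_ord_toType κ).symm)
  obtain ⟨T, hTcof, hTcard⟩ := Order.exists_cof_eq (α := κ.ord.ToType)
  rw [Ordinal.cof_toType, hcof] at hTcard
  have hTcount : T.Countable := Cardinal.le_aleph0_iff_set_countable.mp hTcard.le
  have hTne : T.Nonempty := by
    rw [Set.nonempty_iff_ne_empty]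
    intro h0
    rw [h0] at hTcard
    simp only [Cardinal.mk_eq_zero] at hTcard
    exact Cardinal.aleph0_ne_zero hTcard.symm
  obtain ⟨a, ha⟩ := hTcount.exists_eq_range hTne
  refine ⟨fun n => Subtype.val '' (e ⁻¹' {x : κ.ord.ToType | ∃ k ≤ n, x ≤ a k}), ?_, ?_, ?_⟩
  · intro m n hmn
    refine Set.image_mono (Set.preimage_mono ?_)
    rintro x ⟨k, hk, hx⟩
    exact ⟨k, hk.trans hmn, hx⟩
  · refine hS₀d.mono ?_
    intro x hx
    obtain ⟨t, ht, hxt⟩ := hTcof (e ⟨x, hx⟩)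
    rw [ha] at ht
    obtain ⟨k, rfl⟩ := ht
    exact Set.mem_iUnion.mpr ⟨k, ⟨x, hx⟩, ⟨k, le_rfl, hxt⟩, rfl⟩
  · intro n S hS
    refine lt_of_lt_of_le ?_ (hle S hS)
    refine lt_of_le_of_lt Cardinal.mk_image_le ?_
    refine lt_of_le_of_lt (Cardinal.mk_preimage_of_injective _ _ e.injective) ?_
    exact mk_initial_lt hκ a n

end Vale.Agent.Lib.P129
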