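import Vale.Agent.Lib.P129.Chain
import Vale.Agent.Lib.P129.CardSpan

/-! P129: Banach spaces whose density character has countable cofinality have a separable
infinite-dimensional quotient. -/

namespace Vale.Agent.Lib.P129

open TopologicalSpace Set Function Filter Topology Cardinal

variable {𝕜 : Type*} [RCLike 𝕜] {X : Type*} [NormedAddCommGroup X] [NormedSpace 𝕜 X]

theorem hasTS_of_small_union (hinf : ¬ FiniteDimensional 𝕜 X) (D : ℕ → Set X) (hmono : Monotone D)
    (hdense : Dense (⋃ n, D n)) (hsmall : ∀ n, ∀ S : Set X, Dense S → #(D n) < #S) :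
    HasTS 𝕜 X := by
  refine hasTS_of_chain (fun n => (Submodule.span 𝕜 (D n)).topologicalClosure) ?_
    (fun n => Submodule.isClosed_topologicalClosure _) ?_ ?_
  · intro a b hab
    exact Submodule.topologicalClosure_mono (Submodule.span_mono (hmono hab))
  · intro n htop
    by_cases hfin : (D n).Finite
    · apply hinf
      have hfd : FiniteDimensional 𝕜 (Submodule.span 𝕜 (D n)) :=
        FiniteDimensional.span_of_finite 𝕜 hfin
      have hc : IsClosed ((Submodule.span 𝕜 (D n) : Submodule 𝕜 X) : Set X) :=
        Submodule.closed_of_finiteDimensional _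
      rw [hc.submodule_topologicalClosure_eq] at htop
      rw [htop] at hfd
      exact (LinearEquiv.finiteDimensional (Submodule.topEquiv : _ ≃ₗ[𝕜] X))
    · obtain ⟨S, hS, hcard⟩ := exists_dense_card_le (𝕜 := 𝕜) (D n) hfin htop
      exact absurd (hsmall n S hS) (not_lt.2 hcard)
  · refine hdense.mono ?_
    refine iUnion_mono fun n => ?_
    exact fun x hx => Submodule.le_topologicalClosure _ (Submodule.subset_span hx)

end Vale.Agent.Lib.P129
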