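import Vale.Agent.Lib.P129.Operator

/-! P129: `HasTS 𝕜 E`: the normed space `E` carries a triangular system; equivalent to having a
separable infinite-dimensional quotient. -/

namespace Vale.Agent.Lib.P129

open TopologicalSpace Set Function Filter Topology

/-- `E` carries a triangular system. -/
def HasTS (𝕜 : Type*) [RCLike 𝕜] (E : Type*) [NormedAddCommGroup E] [NormedSpace 𝕜 E] : Prop :=
  ∃ (f : ℕ → E →L[𝕜] 𝕜) (x : ℕ → E), IsTriangular f x

variable {𝕜 : Type*} [RCLike 𝕜] {E : Type*} [NormedAddCommGroup E] [NormedSpace 𝕜 E]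

theorem hasTS_iff_sq : HasTS 𝕜 E ↔
    ∃ M : Submodule 𝕜 E, IsClosed (M : Set E) ∧ SeparableSpace (E ⧸ M) ∧
      ¬ FiniteDimensional 𝕜 (E ⧸ M) := by
  constructor
  · rintro ⟨f, x, h⟩
    exact sq_of_triangular h
  · rintro ⟨M, hM, hsep, hinf⟩
    exact triangular_of_sq M hM hsep hinf

end Vale.Agent.Lib.P129
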