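import Vale.Agent.Lib.P129.Range
import Vale.Agent.Lib.P129.TSDef

namespace Vale.Agent.Lib.P129

open TopologicalSpace Set Function Filter Topology

variable {𝕜 : Type*} [RCLike 𝕜]
  {B : Type*} [NormedAddCommGroup B] [NormedSpace 𝕜 B] [CompleteSpace B]
  {E : Type*} [NormedAddCommGroup E] [NormedSpace 𝕜 E] [CompleteSpace E]

/-- On a Banach space without separable infinite-dimensional quotient every dense-range operator
from a Banach space is onto. -/
theorem surjective_of_denseRange_of_not_sq
    (hE : ¬ ∃ M : Submodule 𝕜 E, IsClosed (M : Set E) ∧ SeparableSpace (E ⧸ M) ∧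
      ¬ FiniteDimensional 𝕜 (E ⧸ M))
    (T : B →L[𝕜] E) (hd : DenseRange T) : Surjective T := by
  by_contra hns
  exact hE (hasTS_iff_sq.1 (triangular_of_dense_not_surj T hd hns))

theorem hyperinvariant {X : Type*} [NormedAddCommGroup X] [NormedSpace ℂ X] [CompleteSpace X]
    (hX : ¬ ∃ M : Submodule ℂ X, IsClosed (M : Set X) ∧ SeparableSpace (X ⧸ M) ∧
      ¬ FiniteDimensional ℂ (X ⧸ M))
    (T : X →L[ℂ] X) (hT : ∀ c : ℂ, T ≠ c • ContinuousLinearMap.id ℂ X) :
    ∃ W : Submodule ℂ X, IsClosed (W : Set X) ∧ W ≠ ⊥ ∧ W ≠ ⊤ ∧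
      ∀ S : X →L[ℂ] X, S * T = T * S → ∀ w ∈ W, S w ∈ W := by
  have hnt : Nontrivial X := by
    by_contra h
    rw [not_nontrivial_iff_subsingleton] at h
    exact hT 0 (ContinuousLinearMap.ext fun x => Subsingleton.elim _ _)
  obtain ⟨c, hc⟩ := spectrum.nonempty T
  set S₀ : X →L[ℂ] X := T - c • ContinuousLinearMap.id ℂ X with hS₀
  have hS₀ne : S₀ ≠ 0 := by
    intro h
    exact hT c (sub_eq_zero.1 h)
  have hcomm : ∀ S : X →L[ℂ] X, S * T = T * S → ∀ x, S (S₀ x) = S₀ (S x) := by
    intro S hS x
    have h1 : S (T x) = T (S x) := by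
      have := congrArg (fun R : X →L[ℂ] X => R x) hS
      simpa using this
    simp [hS₀, h1]
  have hnu : ¬ IsUnit S₀ := by
    intro hu
    apply hc
    have : algebraMap ℂ (X →L[ℂ] X) c - T = -S₀ := by
      rw [hS₀]
      ext x
      simp [Algebra.algebraMap_eq_smul_one]
    rw [spectrum.mem_resolventSet_iff, this]
    exact hu.neg
  by_cases hker : LinearMap.ker (S₀ : X →ₗ[ℂ] X) = ⊥
  · by_cases hd : DenseRange S₀
    · exfalso
      have hsurj := surjective_of_denseRange_of_not_sq hX S₀ hd
      apply hnu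
      rw [ContinuousLinearMap.isUnit_iff_bijective]
      exact ⟨LinearMap.ker_eq_bot.1 hker, hsurj⟩
    · refine ⟨(LinearMap.range (S₀ : X →ₗ[ℂ] X)).topologicalClosure,
        Submodule.isClosed_topologicalClosure _, ?_, ?_, ?_⟩
      · intro h
        apply hS₀ne
        ext x
        have : S₀ x ∈ (LinearMap.range (S₀ : X →ₗ[ℂ] X)).topologicalClosure :=
          Submodule.le_topologicalClosure _ ⟨x, rfl⟩
        rw [h] at this
        simpa using this
      · intro h
        apply hd
        intro x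
        have : x ∈ (LinearMap.range (S₀ : X →ₗ[ℂ] X)).topologicalClosure := by rw [h]; trivial
        exact this
      · intro S hS w hw
        have hw' : w ∈ closure (range S₀) := hw
        have : S w ∈ closure (range S₀) := by
          refine map_mem_closure S.continuous hw' ?_
          rintro _ ⟨x, rfl⟩
          exact ⟨S x, (hcomm S hS x).symm⟩
        exact this
  · refine ⟨LinearMap.ker (S₀ : X →ₗ[ℂ] X), S₀.isClosed_ker, hker, ?_, ?_⟩
    · intro h
      apply hS₀ne
      ext x
      have : x ∈ LinearMap.ker (S₀ : X →ₗ[ℂ] X) := by rw [h]; trivial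
      simpa using this
    · intro S hS w hw
      have hw' : S₀ w = 0 := hw
      show S₀ (S w) = 0
      rw [← hcomm S hS w, hw', map_zero]

end Vale.Agent.Lib.P129
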