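import Vale.Agent.Lib.P129.Basic

/-!
P129: operators with dense generalized kernel versus triangular systems.
-/

namespace Vale.Agent.Lib.P129

open TopologicalSpace Set

variable {𝕜 : Type*} [RCLike 𝕜] {X : Type*} [NormedAddCommGroup X] [NormedSpace 𝕜 X]

/-- A non-nilpotent operator with dense generalized kernel gives a triangular system. -/
theorem triangular_of_operator (T : X →L[𝕜] X) (hT : ∀ n : ℕ, T ^ n ≠ 0)
    (hd : Dense {y : X | ∃ n : ℕ, (T ^ n) y = 0}) :
    ∃ (f : ℕ → X →L[𝕜] 𝕜) (x : ℕ → X), IsTriangular f x := by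
  have hmono : ∀ (n k : ℕ) (y : X), n ≤ k → (T ^ n) y = 0 → (T ^ k) y = 0 := by
    intro n k y hnk hy
    obtain ⟨e, rfl⟩ := Nat.exists_eq_add_of_le hnk
    rw [add_comm, pow_add, mul_apply_eq_comp, hy, map_zero]
  have hstep : ∀ n : ℕ, ∃ y : X, (T ^ (n + 1)) y = 0 ∧ (T ^ n) y ≠ 0 := by
    intro n
    by_contra hcon
    push Not at hcon
    have hall : ∀ (e : ℕ) (y : X), (T ^ (n + e)) y = 0 → (T ^ n) y = 0 := by
      intro e
      induction e with
      | zero => intro y hy; simpa using hy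
      | succ e ih =>
        intro y hy
        apply ih
        have h1 : (T ^ (n + 1)) ((T ^ e) y) = 0 := by
          rw [← mul_apply_eq_comp, ← pow_add]
          have : n + 1 + e = n + (e + 1) := by ring
          rw [this]; exact hy
        have h2 := hcon _ h1
        rw [← mul_apply_eq_comp, ← pow_add] at h2
        exact h2
    have hsub : {y : X | ∃ n : ℕ, (T ^ n) y = 0} ⊆ {y : X | (T ^ n) y = 0} := by
      rintro y ⟨k, hk⟩
      have : (T ^ (n + k)) y = 0 := hmono k (n + k) y (Nat.le_add_left _ _) hk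
      exact hall k y this
    have hcl : IsClosed {y : X | (T ^ n) y = 0} :=
      isClosed_eq (T ^ n).continuous continuous_const
    have huniv : {y : X | (T ^ n) y = 0} = univ := by
      have := (hd.mono hsub).closure_eq
      rwa [hcl.closure_eq] at this
    apply hT n
    ext y
    have : y ∈ {y : X | (T ^ n) y = 0} := by rw [huniv]; trivial
    simpa using this
  choose x hx1 hx0 using hstep
  have hK : ∀ n : ℕ, ∃ g : X →L[𝕜] 𝕜,
      (∀ h ∈ LinearMap.ker ((T ^ n : X →L[𝕜] X) : X →ₗ[𝕜] X), g h = 0) ∧ g (x n) = 1 := by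
    intro n
    apply exists_dual_vanishing
    · exact (T ^ n).isClosed_ker
    · intro hmem
      exact hx0 n (LinearMap.mem_ker.1 hmem)
  choose f hf0 hf1 using hK
  refine ⟨f, x, ?_, ?_, ?_⟩
  · intro j k hjk
    apply hf0 k
    exact LinearMap.mem_ker.2 (hmono (j + 1) k (x j) hjk (hx1 j))
  · intro j
    rw [hf1 j]; exact one_ne_zero
  · refine hd.mono ?_
    rintro y ⟨n, hn⟩
    exact ⟨n, fun k hk => hf0 k y (LinearMap.mem_ker.2 (hmono n k y hk hn))⟩

/-- A separable infinite-dimensional quotient gives a triangular system. -/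
theorem triangular_of_sq (M : Submodule 𝕜 X) (hM : IsClosed (M : Set X))
    (hsep : SeparableSpace (X ⧸ M)) (hinf : ¬ FiniteDimensional 𝕜 (X ⧸ M)) :
    ∃ (f : ℕ → X →L[𝕜] 𝕜) (x : ℕ → X), IsTriangular f x := by
  have : IsClosed (M : Set X) := hM
  set Z := X ⧸ M with hZ
  let d : ℕ → Z := denseSeq Z
  have hdd : DenseRange d := denseRange_denseSeq Z
  let P : ℕ × Z × (Z →L[𝕜] 𝕜) → Prop := fun a => a.2.2 a.2.1 = 1 ∧ ∀ j, j ≤ a.1 → a.2.2 (d j) = 0
  let r : ℕ × Z × (Z →L[𝕜] 𝕜) → ℕ × Z × (Z →L[𝕜] 𝕜) → Prop :=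
    fun a b => b.2.2 a.2.1 = 0 ∧ a.1 < b.1
  have key : ∀ s : Finset (ℕ × Z × (Z →L[𝕜] 𝕜)), (∀ a ∈ s, P a) →
      ∃ b, P b ∧ ∀ a ∈ s, r a b := by
    classical
    intro s _
    set i : ℕ := s.sup (fun a => a.1) + 1 with hi
    set S : Set Z := (fun a : ℕ × Z × (Z →L[𝕜] 𝕜) => a.2.1) '' (s : Set _) ∪
      d '' (Finset.range (i + 1) : Set ℕ) with hS
    have hSfin : S.Finite :=
      (s.finite_toSet.image _).union ((Finset.range (i + 1)).finite_toSet.image _)
    set H : Submodule 𝕜 Z := Submodule.span 𝕜 S with hH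
    have hHfd : FiniteDimensional 𝕜 H := FiniteDimensional.span_of_finite 𝕜 hSfin
    have hHcl : IsClosed (H : Set Z) := H.closed_of_finiteDimensional
    have hex : ∃ z : Z, z ∉ H := by
      by_contra hcon
      push Not at hcon
      have htop : H = ⊤ := eq_top_iff.2 fun z _ => hcon z
      apply hinf
      refine ⟨?_⟩
      rw [← htop]
      exact Submodule.fg_span hSfin
    obtain ⟨z, hz⟩ := hex
    obtain ⟨g, hg0, hg1⟩ := exists_dual_vanishing H hHcl hz
    refine ⟨(i, z, g), ⟨hg1, ?_⟩, ?_⟩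
    · intro j hj
      apply hg0
      apply Submodule.subset_span
      right
      exact ⟨j, by simpa using Nat.lt_succ_of_le hj, rfl⟩
    · intro a ha
      refine ⟨?_, ?_⟩
      · apply hg0
        apply Submodule.subset_span
        left
        exact ⟨a, ha, rfl⟩
      · have : a.1 ≤ s.sup (fun a => a.1) := Finset.le_sup (f := fun a => a.1) ha
        exact Nat.lt_succ_of_le this
  obtain ⟨u, huP, hur⟩ := exists_seq_of_forall_finset_exists P r key
  have hidx : ∀ n, n ≤ (u n).1 := by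
    intro n
    induction n with
    | zero => exact Nat.zero_le _
    | succ n ih => exact Nat.succ_le_of_lt (lt_of_le_of_lt ih (hur n (n + 1) (Nat.lt_succ_self n)).2)
  have hlift : ∀ n, ∃ y : X, M.mkQ y = (u n).2.1 := fun n => Submodule.mkQ_surjective M _
  choose x hx using hlift
  refine ⟨fun n => (u n).2.2.comp M.mkQL, x, ?_, ?_, ?_⟩
  · intro j k hjk
    have := (hur j k hjk).1
    show (u k).2.2 (M.mkQ (x j)) = 0
    rw [hx j]; exact this
  · intro j
    have := (huP j).1
    show (u j).2.2 (M.mkQ (x j)) ≠ 0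
    rw [hx j, this]; exact one_ne_zero
  · have hDZ : Dense {z : Z | ∃ m, ∀ k, m ≤ k → (u k).2.2 z = 0} := by
      refine hdd.mono ?_
      rintro _ ⟨j, rfl⟩
      exact ⟨j, fun k hk => (huP k).2 j (hk.trans (hidx k))⟩
    have := hDZ.preimage M.isOpenMap_mkQ
    refine this.mono ?_
    rintro y ⟨m, hm⟩
    exact ⟨m, fun k hk => hm k hk⟩

end Vale.Agent.Lib.P129
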