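import Vale.Agent.Lib.P129.Shift

/-! P129, leaf (I). -/

namespace Vale.Agent.Lib.P129

open TopologicalSpace Set Function Filter Topology

variable {𝕜 : Type*} [RCLike 𝕜]
  {B : Type*} [NormedAddCommGroup B] [NormedSpace 𝕜 B] [CompleteSpace B]
  {E : Type*} [NormedAddCommGroup E] [NormedSpace 𝕜 E] [CompleteSpace E]

/-- (I) a biorthogonal system whose functionals are summably small on the dense range of `T` is
triangular (definition `IsTriangular` in Basic.lean).

PLAN. The first two clauses are immediate from hb.  Density: it suffices (hd, `DenseRange`,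
`Metric.dense_iff` or `closure` argument: the closure of D := {y | ∃ m, ∀ k ≥ m, f k y = 0} is closed and
contains range T) to show T b ∈ closure D for every b.  Fix b, x := T b.  The family
k ↦ f k x • z k is summable: ‖f k x • z k‖ ≤ ‖(f k).comp T‖ * ‖b‖ * ‖z k‖ ≤ ‖b‖ * (1/2)^k.
For m : ℕ let w m := ∑' k, f (k + m) x • z (k + m) and y m := x - w m.
(1) y m ∈ D with witness m: for i ≥ m, f i (w m) = ∑' k, f (k+m) x * f i (z (k+m)) = f i x
(`ContinuousLinearMap.map_tsum` or `HasSum.mapL`/`(f i).hasSum`, then `hasSum_single (i - m)` and hb).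
(2) ‖w m‖ ≤ ∑' k, ‖b‖ * (1/2)^(k+m) = 2 * ‖b‖ * (1/2)^m → 0, so y m → x; conclude with
`mem_closure_of_tendsto`. -/
theorem triangular_of_biorth (T : B →L[𝕜] E) (hd : DenseRange T)
    (f : ℕ → E →L[𝕜] 𝕜) (z : ℕ → E) (hb : ∀ i j, f i (z j) = if i = j then 1 else 0)
    (hs : ∀ k, ‖(f k).comp T‖ * ‖z k‖ ≤ (1 / 2 : ℝ) ^ k) : IsTriangular f z := by
  refine ⟨fun j k hjk => ?_, fun j => ?_, ?_⟩
  · rw [hb, if_neg (by omega)]
  · rw [hb, if_pos rfl]
    exact one_ne_zero
  · set D : Set E := {y : E | ∃ m, ∀ k, m ≤ k → f k y = 0} with hD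
    have key : ∀ b : B, T b ∈ closure D := by
      intro b
      set x := T b with hx
      have hbound : ∀ k, ‖f k x • z k‖ ≤ ‖b‖ * (1 / 2 : ℝ) ^ k := by
        intro k
        calc ‖f k x • z k‖ = ‖f k x‖ * ‖z k‖ := norm_smul _ _
          _ = ‖((f k).comp T) b‖ * ‖z k‖ := rfl
          _ ≤ (‖(f k).comp T‖ * ‖b‖) * ‖z k‖ := by
              gcongr
              exact ContinuousLinearMap.le_opNorm _ _
          _ = ‖b‖ * (‖(f k).comp T‖ * ‖z k‖) := by ring
          _ ≤ ‖b‖ * (1 / 2 : ℝ) ^ k := by
              gcongr
              exact hs k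
      have hgeo : Summable (fun k : ℕ => ‖b‖ * (1 / 2 : ℝ) ^ k) :=
        summable_geometric_two.mul_left _
      have hsum : Summable (fun k => f k x • z k) := Summable.of_norm_bounded hgeo hbound
      let w : ℕ → E := fun m => ∑' k, f (k + m) x • z (k + m)
      have hsumm : ∀ m, Summable (fun k => f (k + m) x • z (k + m)) :=
        fun m => (summable_nat_add_iff m).mpr hsum
      have hw0 : Tendsto w atTop (𝓝 0) := tendsto_sum_nat_add (fun k => f k x • z k)
      have hy : ∀ m, x - w m ∈ D := by
        intro m
        refine ⟨m, fun i hi => ?_⟩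
        rw [map_sub, sub_eq_zero]
        have h1 : HasSum (fun k => f i (f (k + m) x • z (k + m))) (f i (w m)) :=
          (f i).hasSum (hsumm m).hasSum
        have h2 : HasSum (fun k => f i (f (k + m) x • z (k + m))) (f i x) := by
          have hfun : (fun k => f i (f (k + m) x • z (k + m)))
              = fun k => if k = i - m then f i x else 0 := by
            funext k
            rw [map_smul, hb, smul_eq_mul]
            by_cases hk : k = i - m
            · have hik : i = k + m := by omega
              rw [if_pos hik, if_pos hk, mul_one, ← hik]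
            · have hik : i ≠ k + m := by omega
              rw [if_neg hik, if_neg hk, mul_zero]
          rw [hfun]
          exact hasSum_ite_eq (i - m) (f i x)
        exact h2.unique h1
      have hlim : Tendsto (fun m => x - w m) atTop (𝓝 x) := by
        simpa using (tendsto_const_nhds (x := x)).sub hw0
      exact mem_closure_of_tendsto hlim (Eventually.of_forall hy)
    have hsub : range T ⊆ closure D := by
      rintro _ ⟨b, rfl⟩
      exact key b
    have hcl : closure (range T) ⊆ closure D := closure_minimal hsub isClosed_closure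
    rw [hd.closure_range] at hcl
    exact dense_iff_closure_eq.mpr (univ_subset_iff.mp hcl)

end Vale.Agent.Lib.P129
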