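import Vale.Agent.Lib.P129.RangeH
import Vale.Agent.Lib.P129.RangeI

/-! P129: a bounded operator between Banach spaces with dense range that is not onto produces a
triangular system (hence a separable infinite-dimensional quotient) on its codomain. -/

namespace Vale.Agent.Lib.P129

open TopologicalSpace Set Function Filter Topology

variable {𝕜 : Type*} [RCLike 𝕜]
  {B : Type*} [NormedAddCommGroup B] [NormedSpace 𝕜 B] [CompleteSpace B]
  {E : Type*} [NormedAddCommGroup E] [NormedSpace 𝕜 E] [CompleteSpace E]

/-- (J) -/
theorem triangular_of_dense_not_surj (T : B →L[𝕜] E) (hd : DenseRange T)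
    (hns : ¬ Surjective T) : ∃ (f : ℕ → E →L[𝕜] 𝕜) (x : ℕ → E), IsTriangular f x := by
  obtain ⟨f, z, hb, hs⟩ := exists_biorth_seq T hd hns
  exact ⟨f, z, triangular_of_biorth T hd f z hb hs⟩

end Vale.Agent.Lib.P129
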