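import Mathlib

/-! P129, leaves (A), (B): finite-dimensional enlargements of a dense proper operator range. -/

namespace Vale.Agent.Lib.P129

open TopologicalSpace Set Function Filter Topology

variable {𝕜 : Type*} [RCLike 𝕜]
  {B : Type*} [NormedAddCommGroup B] [NormedSpace 𝕜 B] [CompleteSpace B]
  {E : Type*} [NormedAddCommGroup E] [NormedSpace 𝕜 E] [CompleteSpace E]

/-- (A) adding one vector to a dense proper operator range does not make it everything. -/
theorem not_surj_single (T : B →L[𝕜] E) (hd : DenseRange T) (hns : ¬ Surjective T) (z : E) :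
    ¬ Surjective (T.coprod (ContinuousLinearMap.toSpanSingleton 𝕜 z)) := by
  intro hsurj
  have hopen : IsOpenMap (T.coprod (ContinuousLinearMap.toSpanSingleton 𝕜 z)) :=
    ContinuousLinearMap.isOpenMap _ hsurj
  have hU : IsOpen {p : B × 𝕜 | p.2 ≠ 0} := isOpen_ne_fun continuous_snd continuous_const
  have hSU := hopen _ hU
  have hne : ((T.coprod (ContinuousLinearMap.toSpanSingleton 𝕜 z)) ''
      {p : B × 𝕜 | p.2 ≠ 0}).Nonempty :=
    ⟨_, (0, 1), by simp, rfl⟩
  obtain ⟨b', hb'⟩ := hd.exists_mem_open hSU hne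
  obtain ⟨⟨b, c⟩, hc, hbc⟩ := hb'
  have hc' : c ≠ 0 := hc
  have h0 : T b + c • z = T b' := by simpa using hbc
  have hz : z = T (c⁻¹ • (b' - b)) := by
    rw [map_smul, map_sub, ← h0]
    simp [smul_smul, inv_mul_cancel₀ hc']
  apply hns
  intro y
  obtain ⟨⟨b1, c1⟩, h1⟩ := hsurj y
  refine ⟨b1 + c1 • (c⁻¹ • (b' - b)), ?_⟩
  rw [map_add, map_smul, ← hz]
  simpa using h1

/-- the operator `(b, c) ↦ T b + ∑ j, c j • z j`. -/
noncomputable def ext (T : B →L[𝕜] E) {r : ℕ} (z : Fin r → E) : B × (Fin r → 𝕜) →L[𝕜] E :=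
  T.coprod (∑ j, (ContinuousLinearMap.proj j : (Fin r → 𝕜) →L[𝕜] 𝕜).smulRight (z j))

omit [CompleteSpace B] [CompleteSpace E] in
theorem ext_apply (T : B →L[𝕜] E) {r : ℕ} (z : Fin r → E) (p : B × (Fin r → 𝕜)) :
    ext T z p = T p.1 + ∑ j, p.2 j • z j := by
  simp [ext]

/-- (B) -/
theorem not_surj_ext (T : B →L[𝕜] E) (hd : DenseRange T) (hns : ¬ Surjective T) {r : ℕ}
    (z : Fin r → E) : ¬ Surjective (ext T z) := by
  induction r with
  | zero =>
    intro hs
    apply hns
    intro y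
    obtain ⟨p, hp⟩ := hs y
    rw [ext_apply] at hp
    exact ⟨p.1, by simpa using hp⟩
  | succ r ih =>
    intro hs
    have ih' := ih (fun j => z j.castSucc)
    have hd' : DenseRange (ext T (fun j => z j.castSucc)) := by
      refine Dense.mono ?_ hd
      rintro _ ⟨b, rfl⟩
      exact ⟨(b, 0), by simp [ext_apply]⟩
    refine not_surj_single (ext T (fun j => z j.castSucc)) hd' ih' (z (Fin.last r)) ?_
    intro y
    obtain ⟨⟨b, c⟩, h⟩ := hs y
    refine ⟨((b, fun j => c j.castSucc), c (Fin.last r)), ?_⟩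
    rw [ext_apply, Fin.sum_univ_castSucc] at h
    simp only [ContinuousLinearMap.coprod_apply, ext_apply,
      ContinuousLinearMap.toSpanSingleton_apply]
    rw [← h, add_assoc]

end Vale.Agent.Lib.P129
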