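import Mathlib

/-! P129, leaf (C). -/

namespace Vale.Agent.Lib.P129

open TopologicalSpace Set Function Filter Topology

variable {𝕜 : Type*} [RCLike 𝕜]
  {B : Type*} [NormedAddCommGroup B] [NormedSpace 𝕜 B] [CompleteSpace B]
  {E : Type*} [NormedAddCommGroup E] [NormedSpace 𝕜 E] [CompleteSpace E]

/-- (C) Hahn-Banach: if the adjoint of `S` is bounded below by `ε`, the closure of the image of
the unit ball contains the ball of radius `ε`.

PLAN. By contradiction: C := closure (S '' closedBall 0 1) is closed and convex (image of a convex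
set under a linear map, then `Convex.closure`).  If x ∉ C, `RCLike.geometric_hahn_banach_closed_point`
(namespace RCLike, file Mathlib/Analysis/LocallyConvex/Separation.lean) gives f : E →L[𝕜] 𝕜 and u with
re (f a) < u on C and u < re (f x).  For ‖b‖ ≤ 1 choose a unimodular scalar c with
c * f (S b) = ‖f (S b)‖ (if f (S b) = 0 trivial, 0 ∈ C gives 0 < u); c • b is again in the closed ball, so
‖f (S b)‖ = re (f (S (c • b))) < u.  Hence ‖f.comp S‖ ≤ u (`ContinuousLinearMap.opNorm_le_of_unit_norm`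
or `opNorm_le_bound` + scaling), and ε * ‖f‖ ≤ u < re (f x) ≤ ‖f‖ * ‖x‖ ≤ ‖f‖ * ε: contradiction. -/
theorem mem_closure_image_ball (S : B →L[𝕜] E) {ε : ℝ}
    (h : ∀ f : E →L[𝕜] 𝕜, ε * ‖f‖ ≤ ‖f.comp S‖) {x : E} (hx : ‖x‖ ≤ ε) :
    x ∈ closure (S '' Metric.closedBall 0 1) := by
  let _ : NormedSpace ℝ B := NormedSpace.restrictScalars ℝ 𝕜 B
  let _ : NormedSpace ℝ E := NormedSpace.restrictScalars ℝ 𝕜 E
  have _ : IsScalarTower ℝ 𝕜 B := RestrictScalars.isScalarTower ℝ 𝕜 B
  have _ : IsScalarTower ℝ 𝕜 E := RestrictScalars.isScalarTower ℝ 𝕜 E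
  by_contra hxC
  have hconv : Convex ℝ (closure (S '' Metric.closedBall 0 1)) := by
    apply Convex.closure
    have := (convex_closedBall (0 : B) 1).linear_image ((S.restrictScalars ℝ) : B →ₗ[ℝ] E)
    simpa using this
  obtain ⟨f, u, hfu, hux⟩ :=
    RCLike.geometric_hahn_banach_closed_point (𝕜 := 𝕜) hconv isClosed_closure hxC
  have h0 : 0 < u := by
    have := hfu 0 (subset_closure ⟨0, by simp, by simp⟩)
    simpa using this
  have hb : ∀ b : B, ‖b‖ ≤ 1 → ‖f (S b)‖ ≤ u := by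
    intro b hb
    obtain ⟨c, hc, hcz⟩ := RCLike.exists_norm_eq_mul_self (f (S b))
    have hmem : S (c • b) ∈ closure (S '' Metric.closedBall 0 1) :=
      subset_closure ⟨c • b, by simp [norm_smul, hc, hb], rfl⟩
    have h1 := hfu _ hmem
    rw [map_smul, map_smul, smul_eq_mul, ← hcz, RCLike.ofReal_re] at h1
    exact h1.le
  have hnorm : ‖f.comp S‖ ≤ u := by
    refine ContinuousLinearMap.opNorm_le_bound _ h0.le (fun b => ?_)
    by_cases hb0 : b = 0
    · simp [hb0]
    · have hbn : 0 < ‖b‖ := norm_pos_iff.2 hb0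
      have h1 := hb (((‖b‖⁻¹ : ℝ) : 𝕜) • b) (by
        rw [norm_smul, RCLike.norm_ofReal, abs_of_pos (inv_pos.2 hbn), inv_mul_cancel₀ hbn.ne'])
      rw [map_smul, map_smul, norm_smul, RCLike.norm_ofReal, abs_of_pos (inv_pos.2 hbn)] at h1
      have h2 : ‖f (S b)‖ ≤ u * ‖b‖ := by
        rwa [inv_mul_le_iff₀ hbn, mul_comm] at h1
      simpa using h2
  have h1 : ε * ‖f‖ ≤ u := (h f).trans hnorm
  have h2 : RCLike.re (f x) ≤ ‖f‖ * ε :=
    (RCLike.re_le_norm _).trans ((f.le_opNorm x).trans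
      (mul_le_mul_of_nonneg_left hx (norm_nonneg _)))
  nlinarith

end Vale.Agent.Lib.P129
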