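import Vale.Agent.Lib.P129.RangeA
import Vale.Agent.Lib.P129.RangeC
import Vale.Agent.Lib.P129.RangeD

/-! P129, leaves (E), (F). -/

namespace Vale.Agent.Lib.P129

open TopologicalSpace Set Function Filter Topology

variable {𝕜 : Type*} [RCLike 𝕜]
  {B : Type*} [NormedAddCommGroup B] [NormedSpace 𝕜 B] [CompleteSpace B]
  {E : Type*} [NormedAddCommGroup E] [NormedSpace 𝕜 E] [CompleteSpace E]

/-- (E) a non-surjective operator has norm-one functionals that are arbitrarily small on its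
range. -/
theorem exists_small_functional (S : B →L[𝕜] E) (hns : ¬ Surjective S) {ε : ℝ} (hε : 0 < ε) :
    ∃ f : E →L[𝕜] 𝕜, ‖f‖ = 1 ∧ ‖f.comp S‖ ≤ ε := by
  by_contra hcon
  have hcon' : ∀ f : E →L[𝕜] 𝕜, ‖f‖ = 1 → ε < ‖f.comp S‖ := by
    intro f hf
    by_contra hlt
    exact hcon ⟨f, hf, not_lt.mp hlt⟩
  have h : ∀ f : E →L[𝕜] 𝕜, ε * ‖f‖ ≤ ‖f.comp S‖ := by
    intro f
    by_cases hf : f = 0
    · subst hf
      simp
    · have hpos : 0 < ‖f‖ := norm_pos_iff.mpr hf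
      have hg : ‖((‖f‖⁻¹ : ℝ) : 𝕜) • f‖ = 1 := by
        rw [norm_smul, RCLike.norm_ofReal, abs_of_pos (inv_pos.mpr hpos)]
        exact inv_mul_cancel₀ hpos.ne'
      have h1 := hcon' _ hg
      rw [ContinuousLinearMap.smul_comp, norm_smul, RCLike.norm_ofReal,
        abs_of_pos (inv_pos.mpr hpos)] at h1
      have h2 : ε * ‖f‖ < ‖f‖⁻¹ * ‖f.comp S‖ * ‖f‖ := mul_lt_mul_of_pos_right h1 hpos
      have h3 : ‖f‖⁻¹ * ‖f.comp S‖ * ‖f‖ = ‖f.comp S‖ := by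
        field_simp
      rw [h3] at h2
      exact h2.le
  apply hns
  apply surjective_of_approx S (1 / ε)
  intro y
  by_cases hy : y = 0
  · subst hy
    exact ⟨0, by simp, by simp⟩
  · have hypos : 0 < ‖y‖ := norm_pos_iff.mpr hy
    have hx' : ‖((ε / ‖y‖ : ℝ) : 𝕜) • y‖ ≤ ε := by
      rw [norm_smul, RCLike.norm_ofReal, abs_of_pos (div_pos hε hypos)]
      exact (div_mul_cancel₀ ε hypos.ne').le
    have hmem := mem_closure_image_ball S h hx'
    rw [Metric.mem_closure_iff] at hmem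
    obtain ⟨w, ⟨b, hb, rfl⟩, hdist⟩ := hmem (ε / 2) (by positivity)
    have hb1 : ‖b‖ ≤ 1 := by simpa using hb
    have hc : 0 < ‖y‖ / ε := div_pos hypos hε
    refine ⟨((‖y‖ / ε : ℝ) : 𝕜) • b, ?_, ?_⟩
    · have hyeq : y = ((‖y‖ / ε : ℝ) : 𝕜) • (((ε / ‖y‖ : ℝ) : 𝕜) • y) := by
        rw [smul_smul, ← RCLike.ofReal_mul]
        have : ‖y‖ / ε * (ε / ‖y‖) = 1 := by
          field_simp
        rw [this]
        simp
      have h4 : dist (S (((‖y‖ / ε : ℝ) : 𝕜) • b)) y =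
          ‖y‖ / ε * dist (((ε / ‖y‖ : ℝ) : 𝕜) • y) (S b) := by
        have h5 : S (((‖y‖ / ε : ℝ) : 𝕜) • b) - y =
            ((‖y‖ / ε : ℝ) : 𝕜) • (S b - ((ε / ‖y‖ : ℝ) : 𝕜) • y) := by
          rw [smul_sub, ← hyeq, map_smul]
        rw [dist_eq_norm, h5, norm_smul, RCLike.norm_ofReal, abs_of_pos hc,
          dist_comm, dist_eq_norm]
      rw [h4]
      calc ‖y‖ / ε * dist (((ε / ‖y‖ : ℝ) : 𝕜) • y) (S b) ≤ ‖y‖ / ε * (ε / 2) :=
            mul_le_mul_of_nonneg_left hdist.le hc.le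
        _ = 1 / 2 * ‖y‖ := by
            field_simp
    · rw [norm_smul, RCLike.norm_ofReal, abs_of_pos hc]
      calc ‖y‖ / ε * ‖b‖ ≤ ‖y‖ / ε * 1 := mul_le_mul_of_nonneg_left hb1 hc.le
        _ = 1 / ε * ‖y‖ := by ring

/-- (F) -/
theorem exists_small_functional_fin (T : B →L[𝕜] E) (hd : DenseRange T) (hns : ¬ Surjective T)
    {r : ℕ} (z : Fin r → E) {ε : ℝ} (hε : 0 < ε) :
    ∃ f : E →L[𝕜] 𝕜, ‖f‖ = 1 ∧ ‖f.comp T‖ ≤ ε ∧ ∀ j, ‖f (z j)‖ ≤ ε := by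
  classical
  obtain ⟨f, hf1, hf2⟩ := exists_small_functional (ext T z) (not_surj_ext T hd hns z) hε
  refine ⟨f, hf1, ?_, ?_⟩
  · apply ContinuousLinearMap.opNorm_le_bound _ hε.le
    intro b
    have h1 : (f.comp T) b = (f.comp (ext T z)) (b, 0) := by
      simp [ext_apply]
    have h2 : ‖((b, 0) : B × (Fin r → 𝕜))‖ = ‖b‖ := by
      simp [Prod.norm_def]
    rw [h1]
    calc ‖(f.comp (ext T z)) (b, 0)‖ ≤ ‖f.comp (ext T z)‖ * ‖((b, 0) : B × (Fin r → 𝕜))‖ :=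
          ContinuousLinearMap.le_opNorm _ _
      _ ≤ ε * ‖b‖ := by
          rw [h2]
          exact mul_le_mul_of_nonneg_right hf2 (norm_nonneg b)
  · intro j
    have h1 : f (z j) = (f.comp (ext T z)) (0, Pi.single j 1) := by
      simp [ext_apply, Pi.single_apply]
    have h2 : ‖((0, Pi.single j 1) : B × (Fin r → 𝕜))‖ = 1 := by
      have h3 : ‖(Pi.single j 1 : Fin r → 𝕜)‖ = 1 := by
        rw [Pi.norm_single]
        simp
      simp [Prod.norm_def, h3]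
    rw [h1]
    calc ‖(f.comp (ext T z)) (0, Pi.single j 1)‖
        ≤ ‖f.comp (ext T z)‖ * ‖((0, Pi.single j 1) : B × (Fin r → 𝕜))‖ :=
          ContinuousLinearMap.le_opNorm _ _
      _ ≤ ε := by
          rw [h2, mul_one]
          exact hf2

end Vale.Agent.Lib.P129
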