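import Vale.Agent.Lib.P129.RangeE

/-! P129, leaf (G). -/

namespace Vale.Agent.Lib.P129

open TopologicalSpace Set Function Filter Topology

variable {𝕜 : Type*} [RCLike 𝕜]
  {B : Type*} [NormedAddCommGroup B] [NormedSpace 𝕜 B] [CompleteSpace B]
  {E : Type*} [NormedAddCommGroup E] [NormedSpace 𝕜 E] [CompleteSpace E]

/-- (G) extension of a finite biorthogonal system.

PLAN. Put a := ∑ j, ‖F j‖, t := ∑ j, ‖(F j).comp T‖, R := 4 * (1 + ∑ j, ‖F j‖ * ‖Z j‖) and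
ε := min (1 / (2 * (1 + a))) (η / ((1 + t) * R)) > 0.  Take g from `exists_small_functional_fin T hd hns Z`
with this ε: ‖g‖ = 1, ‖g.comp T‖ ≤ ε, ‖g (Z j)‖ ≤ ε.
f := g - ∑ j, g (Z j) • F j.  Then f (Z i) = 0 by hb (Finset.sum_ite_eq), ‖f‖ ≥ 1 - ε * a ≥ 1/2 and
‖f.comp T‖ ≤ ε + ε * t = ε * (1 + t).
`ContinuousLinearMap.exists_lt_apply_of_lt_opNorm f (r := 1/4)` gives z' with ‖z'‖ < 1, 1/4 < ‖f z'‖;
z'' := (f z')⁻¹ • z' has f z'' = 1, ‖z''‖ ≤ 4.  z := z'' - ∑ j, F j z'' • Z j.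
Then F i z = 0 (hb), f z = 1 (as f (Z j) = 0) and ‖z‖ ≤ 4 + ∑ j, ‖F j‖ * 4 * ‖Z j‖ = R.
So ‖f.comp T‖ * ‖z‖ ≤ ε * (1 + t) * R ≤ η. -/
theorem biorth_step (T : B →L[𝕜] E) (hd : DenseRange T) (hns : ¬ Surjective T) {n : ℕ}
    (F : Fin n → E →L[𝕜] 𝕜) (Z : Fin n → E)
    (hb : ∀ i j, F i (Z j) = if i = j then 1 else 0) {η : ℝ} (hη : 0 < η) :
    ∃ (f : E →L[𝕜] 𝕜) (z : E), f z = 1 ∧ (∀ j, f (Z j) = 0) ∧ (∀ j, F j z = 0) ∧
      ‖f.comp T‖ * ‖z‖ ≤ η := by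
  classical
  set a : ℝ := ∑ j, ‖F j‖ with ha
  set t : ℝ := ∑ j, ‖(F j).comp T‖ with ht
  set R : ℝ := 4 * (1 + ∑ j, ‖F j‖ * ‖Z j‖) with hR
  have ha0 : 0 ≤ a := Finset.sum_nonneg (fun j _ => norm_nonneg _)
  have ht0 : 0 ≤ t := Finset.sum_nonneg (fun j _ => norm_nonneg _)
  have hs0 : 0 ≤ ∑ j, ‖F j‖ * ‖Z j‖ :=
    Finset.sum_nonneg (fun j _ => mul_nonneg (norm_nonneg _) (norm_nonneg _))
  have hR0 : 0 < R := by rw [hR]; linarith
  set ε : ℝ := min (1 / (2 * (1 + a))) (η / ((1 + t) * R)) with hε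
  have hε0 : 0 < ε := by
    rw [hε]
    apply lt_min
    · positivity
    · positivity
  have hε1 : ε ≤ 1 / (2 * (1 + a)) := min_le_left _ _
  have hε2 : ε ≤ η / ((1 + t) * R) := min_le_right _ _
  obtain ⟨g, hg1, hgT, hgZ⟩ := exists_small_functional_fin T hd hns Z hε0
  set f : E →L[𝕜] 𝕜 := g - ∑ j, g (Z j) • F j with hf
  have hfapp : ∀ x, f x = g x - ∑ j, g (Z j) * F j x := by
    intro x
    simp [hf]
  have hfZ : ∀ i, f (Z i) = 0 := by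
    intro i
    rw [hfapp]
    have : ∑ j, g (Z j) * F j (Z i) = g (Z i) := by
      simp [hb]
    rw [this, sub_self]
  -- lower bound for the norm of f
  have hsum1 : ‖∑ j, g (Z j) • F j‖ ≤ ε * a := by
    calc ‖∑ j, g (Z j) • F j‖ ≤ ∑ j, ‖g (Z j) • F j‖ := norm_sum_le _ _
      _ ≤ ∑ j, ε * ‖F j‖ := by
          apply Finset.sum_le_sum
          intro j _
          rw [norm_smul]
          exact mul_le_mul_of_nonneg_right (hgZ j) (norm_nonneg _)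
      _ = ε * a := by rw [ha, Finset.mul_sum]
  have hεa : ε * a ≤ 1 / 2 := by
    have h1 : ε * a ≤ 1 / (2 * (1 + a)) * a := mul_le_mul_of_nonneg_right hε1 ha0
    have h2 : 1 / (2 * (1 + a)) * a ≤ 1 / 2 := by
      rw [div_mul_eq_mul_div, div_le_div_iff₀ (by positivity) (by norm_num)]
      nlinarith
    linarith
  have hfnorm : 1 / 2 ≤ ‖f‖ := by
    have h1 : ‖g‖ ≤ ‖f‖ + ‖∑ j, g (Z j) • F j‖ := by
      have : g = f + ∑ j, g (Z j) • F j := by rw [hf]; abel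
      calc ‖g‖ = ‖f + ∑ j, g (Z j) • F j‖ := by rw [← this]
        _ ≤ _ := norm_add_le _ _
    rw [hg1] at h1
    linarith
  -- upper bound for f ∘ T
  have hfT : f.comp T = g.comp T - ∑ j, g (Z j) • (F j).comp T := by
    ext x
    simp [hfapp]
  have hfTnorm : ‖f.comp T‖ ≤ ε * (1 + t) := by
    rw [hfT]
    calc ‖g.comp T - ∑ j, g (Z j) • (F j).comp T‖
        ≤ ‖g.comp T‖ + ‖∑ j, g (Z j) • (F j).comp T‖ := norm_sub_le _ _
      _ ≤ ε + ∑ j, ‖g (Z j) • (F j).comp T‖ := add_le_add hgT (norm_sum_le _ _)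
      _ ≤ ε + ∑ j, ε * ‖(F j).comp T‖ := by
          gcongr with j _
          rw [norm_smul]
          exact mul_le_mul_of_nonneg_right (hgZ j) (norm_nonneg _)
      _ = ε * (1 + t) := by rw [ht, ← Finset.mul_sum]; ring
  obtain ⟨z', hz'1, hz'2⟩ :=
    ContinuousLinearMap.exists_lt_apply_of_lt_opNorm f (r := 1 / 4) (by linarith)
  have hfz' : f z' ≠ 0 := by
    intro h0
    rw [h0, norm_zero] at hz'2
    linarith
  set z'' : E := (f z')⁻¹ • z' with hz''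
  have hfz'' : f z'' = 1 := by
    rw [hz'', map_smul, smul_eq_mul, inv_mul_cancel₀ hfz']
  have hz''n : ‖z''‖ ≤ 4 := by
    rw [hz'', norm_smul, norm_inv]
    have h1 : ‖f z'‖⁻¹ ≤ 4 := by
      rw [inv_le_comm₀ (by linarith) (by norm_num)]
      linarith
    calc ‖f z'‖⁻¹ * ‖z'‖ ≤ 4 * 1 :=
          mul_le_mul h1 hz'1.le (norm_nonneg _) (by norm_num)
      _ = 4 := by norm_num
  refine ⟨f, z'' - ∑ j, F j z'' • Z j, ?_, hfZ, ?_, ?_⟩
  · rw [map_sub, map_sum, hfz'']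
    simp [hfZ]
  · intro i
    rw [map_sub, map_sum]
    have : ∑ j, F i (F j z'' • Z j) = F i z'' := by
      simp [hb]
    rw [this, sub_self]
  · have hzn : ‖z'' - ∑ j, F j z'' • Z j‖ ≤ R := by
      calc ‖z'' - ∑ j, F j z'' • Z j‖ ≤ ‖z''‖ + ‖∑ j, F j z'' • Z j‖ := norm_sub_le _ _
        _ ≤ 4 + ∑ j, ‖F j z'' • Z j‖ := add_le_add hz''n (norm_sum_le _ _)
        _ ≤ 4 + ∑ j, 4 * (‖F j‖ * ‖Z j‖) := by
            gcongr with j _
            rw [norm_smul]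
            have h1 : ‖F j z''‖ ≤ ‖F j‖ * 4 :=
              ((F j).le_opNorm z'').trans (mul_le_mul_of_nonneg_left hz''n (norm_nonneg _))
            calc ‖F j z''‖ * ‖Z j‖ ≤ ‖F j‖ * 4 * ‖Z j‖ :=
                  mul_le_mul_of_nonneg_right h1 (norm_nonneg _)
              _ = 4 * (‖F j‖ * ‖Z j‖) := by ring
        _ = R := by rw [hR, ← Finset.mul_sum]; ring
    have hpos : 0 < (1 + t) * R := mul_pos (by linarith) hR0
    have hfin : ε * ((1 + t) * R) ≤ η := (le_div_iff₀ hpos).mp hε2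
    have hnn : 0 ≤ ε * (1 + t) := mul_nonneg hε0.le (by linarith)
    have hmul : ‖f.comp T‖ * ‖z'' - ∑ j, F j z'' • Z j‖ ≤ ε * (1 + t) * R :=
      mul_le_mul hfTnorm hzn (norm_nonneg _) hnn
    linarith [mul_assoc ε (1 + t) R]

end Vale.Agent.Lib.P129
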