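import Mathlib

/-! P129, leaf (H0): dependent choice along initial segments. -/

namespace Vale.Agent.Lib.P129

/-- the recursively chosen system of good initial segments -/
noncomputable def finStepSys {α : Type*} (Good : ∀ n : ℕ, (Fin n → α) → Prop)
    (h0 : Good 0 Fin.elim0)
    (hstep : ∀ (n : ℕ) (a : Fin n → α), Good n a → ∃ x, Good (n + 1) (Fin.snoc a x)) :
    (n : ℕ) → {a : Fin n → α // Good n a}
  | 0 => ⟨Fin.elim0, h0⟩
  | n + 1 =>
    ⟨Fin.snoc (finStepSys Good h0 hstep n).1
        (Classical.choose (hstep n _ (finStepSys Good h0 hstep n).2)),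
      Classical.choose_spec (hstep n _ (finStepSys Good h0 hstep n).2)⟩

/-- (H0) dependent choice along initial segments.

PLAN. Define by recursion sys : (n : ℕ) → {a : Fin n → α // Good n a},
sys 0 = ⟨Fin.elim0, h0⟩, sys (n+1) = ⟨Fin.snoc (sys n).1 (Classical.choose (hstep n _ (sys n).2)), choose_spec⟩.
Put s k := (sys (k+1)).1 (Fin.last k).  Prove by induction on n that
(sys n).1 = fun i : Fin n => s i  (funext; Fin.lastCases / Fin.snoc_castSucc, Fin.snoc_last).  Conclude with (sys n).2. -/
theorem exists_seq_of_fin_step {α : Type*} (Good : ∀ n : ℕ, (Fin n → α) → Prop)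
    (h0 : Good 0 Fin.elim0)
    (hstep : ∀ (n : ℕ) (a : Fin n → α), Good n a → ∃ x, Good (n + 1) (Fin.snoc a x)) :
    ∃ s : ℕ → α, ∀ n : ℕ, Good n (fun i : Fin n => s i) := by
  classical
  set sys := finStepSys Good h0 hstep with hsys
  refine ⟨fun k => (sys (k + 1)).1 (Fin.last k), ?_⟩
  have key : ∀ n : ℕ, (sys n).1 = fun i : Fin n => (sys ((i : ℕ) + 1)).1 (Fin.last (i : ℕ)) := by
    intro n
    induction n with
    | zero => funext i; exact i.elim0
    | succ n ih =>
      funext i
      refine Fin.lastCases ?_ (fun j => ?_) i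
      · simp
      · have h1 : (sys (n + 1)).1 (Fin.castSucc j) = (sys n).1 j := by
          simp only [hsys, finStepSys, Fin.snoc_castSucc]
        rw [h1, ih]
        simp
  intro n
  rw [← key n]
  exact (sys n).2

end Vale.Agent.Lib.P129
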