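import Vale.Agent.Lib.P129.RangeG
import Vale.Agent.Lib.P129.RangeH0

/-! P129, leaf (H). -/

namespace Vale.Agent.Lib.P129

open TopologicalSpace Set Function Filter Topology

variable {𝕜 : Type*} [RCLike 𝕜]
  {B : Type*} [NormedAddCommGroup B] [NormedSpace 𝕜 B] [CompleteSpace B]
  {E : Type*} [NormedAddCommGroup E] [NormedSpace 𝕜 E] [CompleteSpace E]

/-- (H) an infinite biorthogonal system whose functionals are very small on the range of `T`.

PLAN. Apply `exists_seq_of_fin_step` with α := (E →L[𝕜] 𝕜) × E and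
Good n a := (∀ i j : Fin n, (a i).1 ((a j).2) = if i = j then 1 else 0) ∧
  ∀ k : Fin n, ‖((a k).1).comp T‖ * ‖(a k).2‖ ≤ (1/2 : ℝ)^(k : ℕ).
Step: `biorth_step T hd hns (fun i => (a i).1) (fun i => (a i).2) _ (η := (1/2)^n)` gives (f, z); check
Good (n+1) (Fin.snoc a (f, z)) with Fin.lastCases on both indices (Fin.snoc_castSucc, Fin.snoc_last,
Fin.castSucc_inj, Fin.castSucc_ne_last ...).  Finally, for i j : ℕ use Good (max i j + 1). -/
theorem exists_biorth_seq (T : B →L[𝕜] E) (hd : DenseRange T) (hns : ¬ Surjective T) :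
    ∃ (f : ℕ → E →L[𝕜] 𝕜) (z : ℕ → E), (∀ i j, f i (z j) = if i = j then 1 else 0) ∧
      ∀ k, ‖(f k).comp T‖ * ‖z k‖ ≤ (1 / 2 : ℝ) ^ k := by
  classical
  have key : ∃ s : ℕ → (E →L[𝕜] 𝕜) × E, ∀ n : ℕ,
      (∀ i j : Fin n, (s i).1 ((s j).2) = if i = j then 1 else 0) ∧
      ∀ k : Fin n, ‖((s k).1).comp T‖ * ‖(s k).2‖ ≤ (1 / 2 : ℝ) ^ (k : ℕ) := by
    refine exists_seq_of_fin_step (α := (E →L[𝕜] 𝕜) × E)
      (fun n a => (∀ i j : Fin n, (a i).1 ((a j).2) = if i = j then 1 else 0) ∧
        ∀ k : Fin n, ‖((a k).1).comp T‖ * ‖(a k).2‖ ≤ (1 / 2 : ℝ) ^ (k : ℕ))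
      ⟨fun i => i.elim0, fun k => k.elim0⟩ ?_
    intro n a ha
    obtain ⟨f, z, hfz, hfZ, hFz, hsmall⟩ := biorth_step T hd hns (fun i => (a i).1)
      (fun i => (a i).2) ha.1 (η := (1 / 2 : ℝ) ^ n) (by positivity)
    refine ⟨(f, z), ?_, ?_⟩
    · intro i j
      induction i using Fin.lastCases with
      | last =>
        induction j using Fin.lastCases with
        | last => simpa using hfz
        | cast j =>
          have hne : Fin.last n ≠ j.castSucc := (Fin.castSucc_ne_last j).symm
          simp only [Fin.snoc_last, Fin.snoc_castSucc, if_neg hne]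
          exact hfZ j
      | cast i =>
        induction j using Fin.lastCases with
        | last =>
          have hne : i.castSucc ≠ Fin.last n := Fin.castSucc_ne_last i
          simp only [Fin.snoc_last, Fin.snoc_castSucc, if_neg hne]
          exact hFz i
        | cast j =>
          simp only [Fin.snoc_castSucc, Fin.castSucc_inj]
          exact ha.1 i j
    · intro k
      induction k using Fin.lastCases with
      | last =>
        simp only [Fin.snoc_last, Fin.val_last]
        exact hsmall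
      | cast k =>
        simp only [Fin.snoc_castSucc, Fin.val_castSucc]
        exact ha.2 k
  obtain ⟨s, hs⟩ := key
  refine ⟨fun k => (s k).1, fun k => (s k).2, ?_, ?_⟩
  · intro i j
    have h := (hs (max i j + 1)).1 ⟨i, by omega⟩ ⟨j, by omega⟩
    simp only [Fin.mk.injEq] at h
    exact h
  · intro k
    exact (hs (k + 1)).2 ⟨k, by omega⟩

end Vale.Agent.Lib.P129
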