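import Vale.Agent.Lib.P129.Operator

/-!
P129: from a triangular system to a (nuclear) weighted backward shift.
-/

namespace Vale.Agent.Lib.P129

open TopologicalSpace Set

variable {𝕜 : Type*} [RCLike 𝕜] {X : Type*} [NormedAddCommGroup X] [NormedSpace 𝕜 X]

/-- weights -/
noncomputable def wt (f : ℕ → X →L[𝕜] 𝕜) (x : ℕ → X) (n : ℕ) : ℝ :=
  (1 / 2 : ℝ) ^ n / (1 + ‖f (n + 1)‖ * ‖x n‖)

theorem wt_pos (f : ℕ → X →L[𝕜] 𝕜) (x : ℕ → X) (n : ℕ) : 0 < wt f x n := by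
  unfold wt
  positivity

/-- the rank one pieces of the shift -/
noncomputable def piece (f : ℕ → X →L[𝕜] 𝕜) (x : ℕ → X) (n : ℕ) : X →L[𝕜] X :=
  ((wt f x n : ℝ) : 𝕜) • (f (n + 1)).smulRight (x n)

theorem piece_apply (f : ℕ → X →L[𝕜] 𝕜) (x : ℕ → X) (n : ℕ) (y : X) :
    piece f x n y = ((wt f x n : ℝ) : 𝕜) • (f (n + 1) y • x n) := by
  simp [piece]

theorem norm_piece_le (f : ℕ → X →L[𝕜] 𝕜) (x : ℕ → X) (n : ℕ) :
    ‖piece f x n‖ ≤ (1 / 2 : ℝ) ^ n := by
  unfold piece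
  rw [norm_smul, ContinuousLinearMap.norm_smulRight_apply, RCLike.norm_ofReal,
    abs_of_pos (wt_pos f x n)]
  unfold wt
  have h0 : 0 ≤ ‖f (n + 1)‖ * ‖x n‖ := by positivity
  rw [div_mul_eq_mul_div, div_le_iff₀ (by positivity)]
  have h1 : (0 : ℝ) ≤ (1 / 2 : ℝ) ^ n := by positivity
  nlinarith

theorem summable_piece [CompleteSpace X] (f : ℕ → X →L[𝕜] 𝕜) (x : ℕ → X) :
    Summable (piece f x) :=
  Summable.of_norm_bounded (summable_geometric_of_lt_one (by norm_num) (by norm_num))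
    (norm_piece_le f x)

/-- the weighted backward shift -/
noncomputable def shift (f : ℕ → X →L[𝕜] 𝕜) (x : ℕ → X) : X →L[𝕜] X := ∑' n, piece f x n

theorem hasSum_dual_shift [CompleteSpace X] (f : ℕ → X →L[𝕜] 𝕜) (x : ℕ → X) (g : X →L[𝕜] 𝕜)
    (y : X) :
    HasSum (fun n => ((wt f x n : ℝ) : 𝕜) * (f (n + 1) y * g (x n))) (g (shift f x y)) := by
  have h1 : HasSum (piece f x) (shift f x) := (summable_piece f x).hasSum
  have h2 := (ContinuousLinearMap.apply 𝕜 X y).hasSum h1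
  have h3 := g.hasSum h2
  have h4 : (fun b => g (((ContinuousLinearMap.apply 𝕜 X) y) (piece f x b))) =
      fun n => ((wt f x n : ℝ) : 𝕜) * (f (n + 1) y * g (x n)) := by
    funext n
    simp [piece_apply]
  rw [h4] at h3
  exact h3

theorem shift_mem_tail [CompleteSpace X] {f : ℕ → X →L[𝕜] 𝕜} {x : ℕ → X}
    (h1 : ∀ j k, j < k → f k (x j) = 0) {m : ℕ} {y : X} (hy : y ∈ tail f (m + 1)) :
    shift f x y ∈ tail f m := by
  rw [mem_tail] at hy ⊢
  intro k hk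
  have hs := hasSum_dual_shift f x (f k) y
  have hz : (fun n => ((wt f x n : ℝ) : 𝕜) * (f (n + 1) y * f k (x n))) = fun _ => 0 := by
    funext n
    rcases lt_or_ge n m with hn | hn
    · rw [h1 n k (lt_of_lt_of_le hn hk)]; simp
    · rw [hy (n + 1) (Nat.succ_le_succ hn)]; simp
  rw [hz] at hs
  exact hs.unique hasSum_zero

theorem shift_eq_zero [CompleteSpace X] {f : ℕ → X →L[𝕜] 𝕜} {x : ℕ → X} {y : X}
    (hy : y ∈ tail f 0) : shift f x y = 0 := by
  rw [mem_tail] at hy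
  have h1 : HasSum (piece f x) (shift f x) := (summable_piece f x).hasSum
  have h2 := (ContinuousLinearMap.apply 𝕜 X y).hasSum h1
  have hz : (fun b => ((ContinuousLinearMap.apply 𝕜 X) y) (piece f x b)) = fun _ => 0 := by
    funext n
    simp [piece_apply, hy (n + 1) (Nat.zero_le _)]
  rw [hz] at h2
  exact h2.unique hasSum_zero

theorem shift_pow_eq_zero [CompleteSpace X] {f : ℕ → X →L[𝕜] 𝕜} {x : ℕ → X}
    (h1 : ∀ j k, j < k → f k (x j) = 0) (m : ℕ) :
    ∀ y ∈ tail f m, (shift f x ^ (m + 1)) y = 0 := by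
  induction m with
  | zero =>
    intro y hy
    simpa using shift_eq_zero hy
  | succ m ih =>
    intro y hy
    rw [pow_succ, mul_apply_eq_comp]
    exact ih _ (shift_mem_tail h1 hy)

theorem dual_shift_top [CompleteSpace X] {f : ℕ → X →L[𝕜] 𝕜} {x : ℕ → X}
    (h1 : ∀ j k, j < k → f k (x j) = 0) {m : ℕ} {y : X} (hy : y ∈ tail f (m + 2)) :
    f m (shift f x y) = ((wt f x m : ℝ) : 𝕜) * (f (m + 1) y * f m (x m)) := by
  rw [mem_tail] at hy
  have hs := hasSum_dual_shift f x (f m) y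
  have hsingle : HasSum (fun n => ((wt f x n : ℝ) : 𝕜) * (f (n + 1) y * f m (x n)))
      (((wt f x m : ℝ) : 𝕜) * (f (m + 1) y * f m (x m))) := by
    apply hasSum_single m
    intro n hn
    rcases lt_or_gt_of_ne hn with hlt | hgt
    · rw [h1 n m hlt]; simp
    · rw [hy (n + 1) (Nat.succ_le_succ hgt)]; simp
  exact hs.unique hsingle

theorem dual_shift_pow_ne_zero [CompleteSpace X] {f : ℕ → X →L[𝕜] 𝕜} {x : ℕ → X}
    (h1 : ∀ j k, j < k → f k (x j) = 0) (h2 : ∀ j, f j (x j) ≠ 0) (m : ℕ) :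
    ∀ y ∈ tail f (m + 1), f m y ≠ 0 → f 0 ((shift f x ^ m) y) ≠ 0 := by
  induction m with
  | zero =>
    intro y _ hy0
    simpa using hy0
  | succ m ih =>
    intro y hy hy0
    rw [pow_succ, mul_apply_eq_comp]
    apply ih _ (shift_mem_tail h1 hy)
    rw [dual_shift_top h1 hy]
    have hw : ((wt f x m : ℝ) : 𝕜) ≠ 0 := by
      exact_mod_cast (wt_pos f x m).ne'
    exact mul_ne_zero hw (mul_ne_zero hy0 (h2 m))

/-- A triangular system on a Banach space gives a non-nilpotent operator with dense generalized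
kernel. -/
theorem operator_of_triangular [CompleteSpace X] {f : ℕ → X →L[𝕜] 𝕜} {x : ℕ → X}
    (h : IsTriangular f x) :
    ∃ T : X →L[𝕜] X, (∀ n : ℕ, T ^ n ≠ 0) ∧ Dense {y : X | ∃ n : ℕ, (T ^ n) y = 0} := by
  obtain ⟨h1, h2, h3⟩ := h
  refine ⟨shift f x, ?_, ?_⟩
  · intro n hn
    have hx : x n ∈ tail f (n + 1) := mem_tail.2 fun k hk => h1 n k hk
    have := dual_shift_pow_ne_zero h1 h2 n (x n) hx (h2 n)
    rw [hn] at this
    simp at this
  · refine h3.mono ?_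
    rintro y ⟨m, hm⟩
    exact ⟨m + 1, shift_pow_eq_zero h1 m y (mem_tail.2 hm)⟩

/-- Main equivalence. -/
theorem sq_iff_operator [CompleteSpace X] :
    (∃ M : Submodule 𝕜 X, IsClosed (M : Set X) ∧ SeparableSpace (X ⧸ M) ∧
      ¬ FiniteDimensional 𝕜 (X ⧸ M)) ↔
    ∃ T : X →L[𝕜] X, (∀ n : ℕ, T ^ n ≠ 0) ∧ Dense {y : X | ∃ n : ℕ, (T ^ n) y = 0} := by
  constructor
  · rintro ⟨M, hM, hsep, hinf⟩
    obtain ⟨f, x, h⟩ := triangular_of_sq M hM hsep hinf
    exact operator_of_triangular h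
  · rintro ⟨T, hT, hd⟩
    obtain ⟨f, x, h⟩ := triangular_of_operator T hT hd
    exact sq_of_triangular h

end Vale.Agent.Lib.P129
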