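import Vale.Agent.Lib.P129.Range
import Vale.Agent.Lib.P129.TSPull

/-! P129, leaf (L). -/

namespace Vale.Agent.Lib.P129

open TopologicalSpace Set Function Filter Topology

variable {𝕜 : Type*} [RCLike 𝕜]
  {B : Type*} [NormedAddCommGroup B] [NormedSpace 𝕜 B] [CompleteSpace B]
  {E : Type*} [NormedAddCommGroup E] [NormedSpace 𝕜 E] [CompleteSpace E]

/-- (L) an operator between Banach spaces whose range is not closed and whose range closure has
finite codimension produces a triangular system on the codomain.
PLAN: `E₁ := (LinearMap.range T).topologicalClosure`, a closed hence complete subspace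
(`Submodule.isClosed_topologicalClosure`, `IsClosed.completeSpace_coe`).
`T₁ := T.codRestrict E₁ _ : B →L E₁` has dense range (`Subtype.dense_iff`: `E₁ ⊆ closure (val '' range T₁)`
and `val '' range T₁ = range T`) and is not onto (otherwise `range T = E₁` is closed).
So `triangular_of_dense_not_surj T₁ _ _ : HasTS 𝕜 E₁` (unfold `HasTS`).
`Submodule.ClosedComplemented.of_finiteDimensional_quotient` gives `P : E →L E₁` with `P x = x` on `E₁`;
`P` is onto, hence open (`ContinuousLinearMap.isOpenMap P hsurj`), so `HasTS.pullback P _ _ _`. -/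
theorem hasTS_of_range_not_closed (T : B →L[𝕜] E) (hnc : ¬ IsClosed (range T))
    (hfin : FiniteDimensional 𝕜 (E ⧸ (LinearMap.range (T : B →ₗ[𝕜] E)).topologicalClosure)) :
    HasTS 𝕜 E := by
  set E₁ : Submodule 𝕜 E := (LinearMap.range (T : B →ₗ[𝕜] E)).topologicalClosure with hE₁
  have hcl : IsClosed (E₁ : Set E) := Submodule.isClosed_topologicalClosure _
  have : CompleteSpace E₁ := hcl.completeSpace_coe
  have hmem : ∀ b, T b ∈ E₁ := fun b =>
    Submodule.le_topologicalClosure _ (LinearMap.mem_range_self (T : B →ₗ[𝕜] E) b)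
  set T₁ : B →L[𝕜] E₁ := T.codRestrict E₁ hmem with hT₁
  have hval : ∀ b, ((T₁ b : E₁) : E) = T b := fun b => rfl
  have hd : DenseRange T₁ := by
    unfold DenseRange
    rw [Subtype.dense_iff]
    intro y hy
    have h0 : (E₁ : Set E) = closure (range T) := by
      rw [hE₁, Submodule.topologicalClosure_coe]
      rfl
    have h1 : y ∈ closure (range T) := by
      rw [← h0]
      exact hy
    refine closure_mono ?_ h1
    rintro _ ⟨b, rfl⟩
    exact ⟨T₁ b, ⟨b, rfl⟩, rfl⟩
  have hns : ¬ Surjective T₁ := by
    intro hs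
    apply hnc
    have : range T = (E₁ : Set E) := by
      ext y
      constructor
      · rintro ⟨b, rfl⟩
        exact hmem b
      · intro hy
        obtain ⟨b, hb⟩ := hs ⟨y, hy⟩
        exact ⟨b, by rw [← hval b, hb]⟩
    rw [this]
    exact hcl
  have hts : HasTS 𝕜 E₁ := triangular_of_dense_not_surj T₁ hd hns
  obtain ⟨P, hP⟩ := Submodule.ClosedComplemented.of_finiteDimensional_quotient (p := E₁) hcl
  have hsurj : Surjective P := fun x => ⟨x, hP x⟩
  exact HasTS.pullback P hsurj (ContinuousLinearMap.isOpenMap P hsurj) hts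

end Vale.Agent.Lib.P129
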