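import Vale.Agent.Lib.P129.TSDef

/-! P129, leaf (K1). -/

namespace Vale.Agent.Lib.P129

open TopologicalSpace Set Function Filter Topology

variable {𝕜 : Type*} [RCLike 𝕜] {G : Type*} [NormedAddCommGroup G] [NormedSpace 𝕜 G]

/-- (K1) a separable infinite-dimensional normed space carries a triangular system.
PLAN: `hasTS_iff_sq.2 ⟨⊥, isClosed_singleton-ish, _, _⟩`: `G ⧸ ⊥` is separable because
`(⊥ : Submodule 𝕜 G).mkQ` is continuous and onto
(`(Submodule.mkQ_surjective _).denseRange.separableSpace (Submodule.mkQL _).continuous`-like) and it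
is not finite-dimensional because `Submodule.quotEquivOfEqBot ⊥ rfl : (G ⧸ ⊥) ≃ₗ G`
(`LinearEquiv.finiteDimensional` / `Module.Finite.equiv`). -/
theorem hasTS_of_separable [SeparableSpace G] (hinf : ¬ FiniteDimensional 𝕜 G) : HasTS 𝕜 G := by
  refine hasTS_iff_sq.2 ⟨⊥, ?_, ?_, ?_⟩
  · simp only [Submodule.bot_coe]
    exact isClosed_singleton
  · exact (Submodule.mkQ_surjective (⊥ : Submodule 𝕜 G)).denseRange.separableSpace
      (Submodule.mkQL (⊥ : Submodule 𝕜 G)).continuous
  · intro h
    exact hinf (LinearEquiv.finiteDimensional (Submodule.quotEquivOfEqBot (⊥ : Submodule 𝕜 G) rfl))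

end Vale.Agent.Lib.P129
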