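import Vale.Agent.Lib.P129.Case1
import Vale.Agent.Lib.P129.Case2
import Vale.Agent.Lib.P129.Case3

/-! P129: three-space theorem for separable infinite-dimensional quotients. -/

namespace Vale.Agent.Lib.P129

open TopologicalSpace Set Function Filter Topology

variable {𝕜 : Type*} [RCLike 𝕜] {X : Type*} [NormedAddCommGroup X] [NormedSpace 𝕜 X]
  [CompleteSpace X]

theorem hasTS_three_space (Y : Submodule 𝕜 X) [IsClosed (Y : Set X)] (h : HasTS 𝕜 X) :
    HasTS 𝕜 Y ∨ HasTS 𝕜 (X ⧸ Y) := by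
  obtain ⟨M, hM, hsep, hinf⟩ := hasTS_iff_sq.1 h
  haveI : IsClosed (M : Set X) := hM
  by_cases hfin : FiniteDimensional 𝕜 (X ⧸ (M ⊔ Y).topologicalClosure)
  · by_cases hcl : IsClosed ((M ⊔ Y : Submodule 𝕜 X) : Set X)
    · left
      rw [hcl.submodule_topologicalClosure_eq] at hfin
      exact case2 Y M hsep hinf hcl hfin
    · right
      exact case3 Y M hcl hfin
  · right
    exact case1 Y M (M ⊔ Y).topologicalClosure (Submodule.isClosed_topologicalClosure _) hsep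
      (le_sup_left.trans (Submodule.le_topologicalClosure _))
      (le_sup_right.trans (Submodule.le_topologicalClosure _)) hfin

theorem three_space (Y : Submodule 𝕜 X) (hY : IsClosed (Y : Set X))
    (h : ∃ M : Submodule 𝕜 X, IsClosed (M : Set X) ∧ SeparableSpace (X ⧸ M) ∧
      ¬ FiniteDimensional 𝕜 (X ⧸ M)) :
    (∃ M : Submodule 𝕜 Y, IsClosed (M : Set Y) ∧ SeparableSpace (Y ⧸ M) ∧
      ¬ FiniteDimensional 𝕜 (Y ⧸ M)) ∨
    (∃ M : Submodule 𝕜 (X ⧸ Y), IsClosed (M : Set (X ⧸ Y)) ∧ SeparableSpace ((X ⧸ Y) ⧸ M) ∧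
      ¬ FiniteDimensional 𝕜 ((X ⧸ Y) ⧸ M)) := by
  haveI : IsClosed (Y : Set X) := hY
  rcases hasTS_three_space Y (hasTS_iff_sq.2 h) with h1 | h1
  · exact Or.inl (hasTS_iff_sq.1 h1)
  · exact Or.inr (hasTS_iff_sq.1 h1)

end Vale.Agent.Lib.P129
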